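import Mathlib

/-!
# P331: the single-sample matroid prophet model

Outcomes hold a sample and a value per element; an online rule sees the samples, its seed, the
arrivals so far and the current arrival, and answers accept or reject.  The order of arrivals is an
arbitrary function of the outcome and the seed (almighty adversary).
-/

open MeasureTheory Finset
open scoped NNReal ENNReal Classical

namespace Vale.Agent.Lib.P331

variable {E R : Type}

/-- An outcome `ω`: `(ω e).1` is the sample `S_e` and `(ω e).2` the value `V_e` of element `e`. -/
abbrev Outcome (E : Type) := E → ℝ≥0 × ℝ≥0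

/-- The samples of an outcome. -/
def sam (ω : Outcome E) : E → ℝ≥0 := fun e => (ω e).1

/-- The values of an outcome. -/
def val (ω : Outcome E) : E → ℝ≥0 := fun e => (ω e).2

/-- The law of the outcome: all samples and values are mutually independent, with
`S_e, V_e ∼ D e`. -/
noncomputable def law [Fintype E] (D : E → Measure ℝ≥0) : Measure (Outcome E) :=
  Measure.pi fun e => (D e).prod (D e)

/-- `OPT_M(v)`: the maximum over independent sets of the total value. -/
noncomputable def opt [Fintype E] (M : Matroid E) (v : E → ℝ≥0) : ℝ≥0 :=
  (univ.filter fun I : Finset E => M.Indep (I : Set E)).sup fun I => ∑ e ∈ I, v e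

/-- An online rule with seeds in `R`: given the samples, the seed, the list of past arrivals
(element and value, in order), the current element and its value, it says whether to accept. -/
structure OnlineRule (E R : Type) where
  decide : (E → ℝ≥0) → R → List (E × ℝ≥0) → E → ℝ≥0 → Prop

/-- One arrival: the history grows, and the element joins the accepted set if the rule says so. -/
noncomputable def OnlineRule.step (rule : OnlineRule E R) (s : E → ℝ≥0) (ρ : R)
    (st : List (E × ℝ≥0) × Finset E) (x : E × ℝ≥0) : List (E × ℝ≥0) × Finset E :=
  (st.1 ++ [x], if rule.decide s ρ st.1 x.1 x.2 then insert x.1 st.2 else st.2)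

/-- The set accepted by the rule on a list of arrivals. -/
noncomputable def OnlineRule.accepted (rule : OnlineRule E R) (s : E → ℝ≥0) (ρ : R)
    (arrivals : List (E × ℝ≥0)) : Finset E :=
  (arrivals.foldl (rule.step s ρ) ([], ∅)).2

/-- The arrivals when the elements come in the order `l`. -/
def arrivalsOf (v : E → ℝ≥0) (l : List E) : List (E × ℝ≥0) := l.map fun e => (e, v e)

/-- The rule keeps its accepted set independent, whatever the samples, seed, values and order. -/
def OnlineRule.KeepsIndep (rule : OnlineRule E R) (M : Matroid E) : Prop :=
  ∀ s ρ v l, M.Indep (rule.accepted s ρ (arrivalsOf v l) : Set E)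

/-- For each seed and fixed order of arrivals, the accepted set is a measurable function of the
outcome. -/
def OnlineRule.IsMeasurable (rule : OnlineRule E R) : Prop :=
  ∀ ρ l (A : Finset E), MeasurableSet {ω : Outcome E | rule.accepted (sam ω) ρ (arrivalsOf (val ω) l) = A}

/-- The rule, with seed uniform on the finite set `R` and independent of the outcome, is
`c`-competitive against the almighty adversary: for all laws `D` and every way `π` of choosing
the order of arrivals from the outcome and the seed, the expected accepted value is at least
`c` times the expected optimum, whenever the expected optimum is finite. -/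
def OnlineRule.Competitive [Fintype E] [Fintype R] (rule : OnlineRule E R) (M : Matroid E)
    (c : ℝ≥0) : Prop :=
  ∀ (D : E → Measure ℝ≥0) [∀ e, IsProbabilityMeasure (D e)] (π : Outcome E → R → List E),
    (∀ ω ρ, (π ω ρ).Nodup ∧ ∀ e, e ∈ π ω ρ) →
    ∫⁻ ω, (opt M (val ω) : ℝ≥0∞) ∂(law D) ≠ ∞ →
    (c : ℝ≥0∞) * ∫⁻ ω, (opt M (val ω) : ℝ≥0∞) ∂(law D) ≤
      ∫⁻ ω, (Fintype.card R : ℝ≥0∞)⁻¹ * ∑ ρ : R,
        ((∑ e ∈ rule.accepted (sam ω) ρ (arrivalsOf (val ω) (π ω ρ)), val ω e : ℝ≥0) : ℝ≥0∞) ∂(law D)

end Vale.Agent.Lib.P331
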