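import Vale.Agent.Lib.P331.One

/-!
# P331: the integral inequalities for the one-winner test
-/

open MeasureTheory Finset
open scoped NNReal ENNReal Classical

namespace Vale.Agent.Lib.P331

variable {E : Type} [Fintype E] (N : Finset E)
variable (D : E → Measure ℝ≥0) [∀ e, IsProbabilityMeasure (D e)]

omit [∀ e, IsProbabilityMeasure (D e)] in
private theorem swap_sum (u : E → Outcome E → (E → Bool) → ℝ≥0)
    (hu : ∀ e b, Measurable fun ω => u e ω b) :
    ∑ b, ∫⁻ ω, ((∑ e ∈ N, u e ω b : ℝ≥0) : ℝ≥0∞) ∂(law D) =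
      ∑ e ∈ N, ∑ b, ∫⁻ ω, (u e ω b : ℝ≥0∞) ∂(law D) := by
  rw [Finset.sum_comm]
  refine Finset.sum_congr rfl fun b _ => ?_
  simp only [ENNReal.ofNNReal_finsetSum]
  exact lintegral_finsetSum _ fun e _ => (hu e b).coe_nnreal_ennreal

/-- Exchange inequality summed over the elements. -/
theorem sum_int_sum_le (g h : E → Outcome E → (E → Bool) → ℝ≥0)
    (hg : ∀ e b, Measurable fun ω => g e ω b) (hh : ∀ e b, Measurable fun ω => h e ω b)
    (H : ∀ e ∈ N, ∀ ω b, g e ω b ≤ h e (flip e ω) (flipC e b)) :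
    ∑ b, ∫⁻ ω, ((∑ e ∈ N, g e ω b : ℝ≥0) : ℝ≥0∞) ∂(law D) ≤
      ∑ b, ∫⁻ ω, ((∑ e ∈ N, h e ω b : ℝ≥0) : ℝ≥0∞) ∂(law D) := by
  rw [swap_sum N D g hg, swap_sum N D h hh]
  refine Finset.sum_le_sum fun e he => ?_
  exact sum_lintegral_le_of_flip D e (fun ω b => (g e ω b : ℝ≥0∞)) (fun ω b => (h e ω b : ℝ≥0∞))
    fun ω b => ENNReal.coe_le_coe.2 (H e he ω b)

/-- Doubling form of the exchange inequality. -/
theorem sum_int_sum_le_two (g h : E → Outcome E → (E → Bool) → ℝ≥0)
    (hg : ∀ e b, Measurable fun ω => g e ω b) (hh : ∀ e b, Measurable fun ω => h e ω b)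
    (H : ∀ e ∈ N, ∀ ω b, g e ω b ≤ h e ω b + h e (flip e ω) (flipC e b)) :
    ∑ b, ∫⁻ ω, ((∑ e ∈ N, g e ω b : ℝ≥0) : ℝ≥0∞) ∂(law D) ≤
      2 * ∑ b, ∫⁻ ω, ((∑ e ∈ N, h e ω b : ℝ≥0) : ℝ≥0∞) ∂(law D) := by
  rw [swap_sum N D g hg, swap_sum N D h hh, Finset.mul_sum]
  refine Finset.sum_le_sum fun e he => ?_
  calc ∑ b, ∫⁻ ω, (g e ω b : ℝ≥0∞) ∂(law D)
      ≤ ∑ b, ∫⁻ ω, ((h e ω b : ℝ≥0∞) + (h e (flip e ω) (flipC e b) : ℝ≥0∞)) ∂(law D) := by
        refine Finset.sum_le_sum fun b _ => lintegral_mono fun ω => ?_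
        rw [← ENNReal.coe_add, ENNReal.coe_le_coe]
        exact H e he ω b
    _ = ∑ b, ∫⁻ ω, (h e ω b : ℝ≥0∞) ∂(law D) +
        ∑ b, ∫⁻ ω, (h e (flip e ω) (flipC e b) : ℝ≥0∞) ∂(law D) := by
        rw [← Finset.sum_add_distrib]
        refine Finset.sum_congr rfl fun b _ => ?_
        exact lintegral_add_left (hh e b).coe_nnreal_ennreal _
    _ = ∑ b, ∫⁻ ω, (h e ω b : ℝ≥0∞) ∂(law D) + ∑ b, ∫⁻ ω, (h e ω (flipC e b) : ℝ≥0∞) ∂(law D) := by
        congr 1
        refine Finset.sum_congr rfl fun b _ => ?_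
        exact lintegral_flip D e fun ω => (h e ω (flipC e b) : ℝ≥0∞)
    _ = _ := by
        rw [sum_flipC e fun b => ∫⁻ ω, (h e ω b : ℝ≥0∞) ∂(law D), two_mul]

/-- Step one: the values that pass are, in expectation, at most the top sample. -/
theorem e_one : ∑ b, ∫⁻ ω, ((∑ e ∈ N, if Pp N ω b e then val ω e else 0 : ℝ≥0) : ℝ≥0∞) ∂(law D) ≤
    ∑ _b : E → Bool, ∫⁻ ω : Outcome E, ((N.sup (sam ω) : ℝ≥0) : ℝ≥0∞) ∂(law D) := by
  refine (sum_int_sum_le N D (fun e ω b => if Pp N ω b e then val ω e else 0)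
    (fun e ω _ => if topS N (sam ω) e then sam ω e else 0) ?_ ?_ ?_).trans ?_
  · exact fun e b => Measurable.ite (mset_Pp N b e) (measurable_val e) measurable_const
  · exact fun e _ => Measurable.ite (mset_topS N (x := fun ω => sam ω) measurable_sam e)
      (measurable_sam e) measurable_const
  · intro e _ ω b
    by_cases hp : Pp N ω b e
    · rw [if_pos hp, if_pos, sam_flip_self]
      intro f hf hfe
      rw [sam_flip_self, sam_flip_ne hfe]
      exact hp.2 f hf hfe
    · rw [if_neg hp]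
      exact zero_le
  · refine Finset.sum_le_sum fun b _ => lintegral_mono fun ω => ENNReal.coe_le_coe.2 ?_
    refine sum_ite_le N _ (fun e he f hf h1 h2 => topS_unique N _ e f he hf h1 h2) _ _ fun e he _ => ?_
    exact le_sup he

/-- Step two: the top sample is, in expectation, at most twice the top value that passes. -/
theorem e_two : ∑ _b : E → Bool, ∫⁻ ω : Outcome E, ((N.sup (sam ω) : ℝ≥0) : ℝ≥0∞) ∂(law D) ≤
    2 * ∑ b, ∫⁻ ω, ((Xt N ω b : ℝ≥0) : ℝ≥0∞) ∂(law D) := by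
  have hsup : ∀ ω : Outcome E, N.sup (sam ω) ≤ ∑ e ∈ N, if topS N (xm ω) e then xm ω e else 0 := by
    intro ω
    by_cases hne : N.Nonempty
    · obtain ⟨t, ht, hmax⟩ := exists_max_image N (fun e => key (xm ω e) e) hne
      have htop : topS N (xm ω) t := fun f hf hft =>
        lt_of_le_of_ne (hmax f hf) (key_ne hft)
      calc N.sup (sam ω) ≤ xm ω t := Finset.sup_le fun f hf =>
            (sam_le_xm ω f).trans (le_of_key_le (hmax f hf))
        _ = if topS N (xm ω) t then xm ω t else 0 := (if_pos htop).symm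
        _ ≤ _ := Finset.single_le_sum (f := fun e => if topS N (xm ω) e then xm ω e else 0)
              (fun _ _ => zero_le) ht
    · rw [not_nonempty_iff_eq_empty] at hne
      simp [hne]
  have hX : ∀ (ω : Outcome E) (b : E → Bool),
      ∑ e ∈ N, (if topS N (xm ω) e ∧ own b e (sam ω e) (val ω e) then val ω e else 0) ≤ Xt N ω b := by
    intro ω b
    refine Finset.sum_le_sum fun e _ => ?_
    by_cases hc : topS N (xm ω) e ∧ own b e (sam ω e) (val ω e)
    · have hx : xm ω e = val ω e := max_eq_right (own_le hc.2)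
      have htp : IsTopPass N ω b e := by
        refine ⟨⟨hc.2, fun g hg hge => ?_⟩, fun f hf hfe _ => ?_⟩
        · have := hc.1 g hg hge
          rw [hx] at this
          exact lt_of_le_of_lt (key_le_same g (sam_le_xm ω g)) this
        · have := hc.1 f hf hfe
          rw [hx] at this
          exact lt_of_le_of_lt (key_le_same f (val_le_xm ω f)) this
      rw [if_pos hc, if_pos htp]
    · rw [if_neg hc]
      exact zero_le
  calc ∑ b : E → Bool, ∫⁻ ω : Outcome E, ((N.sup (sam ω) : ℝ≥0) : ℝ≥0∞) ∂(law D)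
      ≤ ∑ b : E → Bool, ∫⁻ ω : Outcome E,
          ((∑ e ∈ N, if topS N (xm ω) e then xm ω e else 0 : ℝ≥0) : ℝ≥0∞) ∂(law D) :=
        Finset.sum_le_sum fun _ _ => lintegral_mono fun ω => ENNReal.coe_le_coe.2 (hsup ω)
    _ ≤ 2 * ∑ b, ∫⁻ ω, ((∑ e ∈ N,
          (if topS N (xm ω) e ∧ own b e (sam ω e) (val ω e) then val ω e else 0) : ℝ≥0) : ℝ≥0∞) ∂(law D) := by
        refine sum_int_sum_le_two N D (fun e ω _ => if topS N (xm ω) e then xm ω e else 0)
          (fun e ω b => if topS N (xm ω) e ∧ own b e (sam ω e) (val ω e) then val ω e else 0)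
          ?_ ?_ ?_
        · exact fun e _ => Measurable.ite (mset_topS N (x := fun ω => xm ω) measurable_xm e)
            (measurable_xm e) measurable_const
        · intro e b
          refine Measurable.ite ?_ (measurable_val e) measurable_const
          refine mset_and (mset_topS N (x := fun ω => xm ω) measurable_xm e) ?_
          unfold own
          refine mset_or ?_ (mset_and ?_ ?_)
          · exact measurableSet_lt (measurable_sam e) (measurable_val e)
          · exact measurableSet_eq_fun (measurable_sam e) (measurable_val e)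
          · exact MeasurableSet.const _
        · intro e _ ω b
          by_cases ht : topS N (xm ω) e
          · rw [if_pos ht]
            rcases own_or_flip b e (sam ω e) (val ω e) with ho | ho
            · rw [if_pos ⟨ht, ho⟩]
              have : xm ω e = val ω e := max_eq_right (own_le ho)
              rw [this]
              exact le_self_add
            · have hc : topS N (xm (flip e ω)) e ∧
                  own (flipC e b) e (sam (flip e ω) e) (val (flip e ω) e) := by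
                rw [xm_flip, sam_flip_self, val_flip_self]
                exact ⟨ht, ho⟩
              rw [if_pos hc, val_flip_self]
              have : xm ω e = sam ω e := max_eq_left (own_le ho)
              rw [this]
              exact le_add_self
          · rw [if_neg ht]
            exact zero_le
    _ ≤ _ := by
        gcongr with b _ ω
        exact hX ω b

/-- Step three: the top value that passes is, in expectation, at most twice the unique value. -/
theorem e_three : ∑ b, ∫⁻ ω, ((Xt N ω b : ℝ≥0) : ℝ≥0∞) ∂(law D) ≤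
    2 * ∑ b, ∫⁻ ω, ((U1 N ω b : ℝ≥0) : ℝ≥0∞) ∂(law D) := by
  have hm : ∀ b, Measurable fun ω : Outcome E =>
      ((∑ f ∈ N, if IsSecond N ω b f then Xt N ω b else 0 : ℝ≥0) : ℝ≥0∞) := fun b =>
    (Finset.measurable_sum _ fun f _ => Measurable.ite (mset_IsSecond N b f)
      (measurable_Xt N b) measurable_const).coe_nnreal_ennreal
  calc ∑ b, ∫⁻ ω, ((Xt N ω b : ℝ≥0) : ℝ≥0∞) ∂(law D)
      ≤ ∑ b, ∫⁻ ω, (((U1 N ω b : ℝ≥0) : ℝ≥0∞) +
          ((∑ f ∈ N, if IsSecond N ω b f then Xt N ω b else 0 : ℝ≥0) : ℝ≥0∞)) ∂(law D) := by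
        refine Finset.sum_le_sum fun b _ => lintegral_mono fun ω => ?_
        rw [← ENNReal.coe_add, ENNReal.coe_le_coe]
        exact Xt_le N ω b
    _ = ∑ b, ∫⁻ ω, ((U1 N ω b : ℝ≥0) : ℝ≥0∞) ∂(law D) +
        ∑ b, ∫⁻ ω, ((∑ f ∈ N, if IsSecond N ω b f then Xt N ω b else 0 : ℝ≥0) : ℝ≥0∞) ∂(law D) := by
        rw [← Finset.sum_add_distrib]
        refine Finset.sum_congr rfl fun b _ => ?_
        exact lintegral_add_right _ (hm b)
    _ ≤ ∑ b, ∫⁻ ω, ((U1 N ω b : ℝ≥0) : ℝ≥0∞) ∂(law D) +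
        ∑ b, ∫⁻ ω, ((∑ f ∈ N, if topS N (sam ω) f then U1 N ω b else 0 : ℝ≥0) : ℝ≥0∞) ∂(law D) := by
        refine add_le_add le_rfl (sum_int_sum_le N D
          (fun f ω b => if IsSecond N ω b f then Xt N ω b else 0)
          (fun f ω b => if topS N (sam ω) f then U1 N ω b else 0) ?_ ?_ ?_)
        · exact fun f b => Measurable.ite (mset_IsSecond N b f) (measurable_Xt N b) measurable_const
        · exact fun f b => Measurable.ite (mset_topS N (x := fun ω => sam ω) measurable_sam f)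
            (measurable_U1 N b) measurable_const
        · intro f hf ω b
          by_cases hs : IsSecond N ω b f
          · obtain ⟨h1, h2⟩ := second_flip N ω b f hf hs
            rw [if_pos hs, if_pos h1]
            exact h2
          · rw [if_neg hs]
            exact zero_le
    _ ≤ ∑ b, ∫⁻ ω, ((U1 N ω b : ℝ≥0) : ℝ≥0∞) ∂(law D) +
        ∑ b, ∫⁻ ω, ((U1 N ω b : ℝ≥0) : ℝ≥0∞) ∂(law D) := by
        refine add_le_add le_rfl
          (Finset.sum_le_sum fun b _ => lintegral_mono fun ω => ENNReal.coe_le_coe.2 ?_)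
        refine sum_ite_le N _ (fun e he f hf h1 h2 => topS_unique N _ e f he hf h1 h2) _ _ fun e _ _ => ?_
        exact le_rfl
    _ = _ := (two_mul _).symm

/-- The main integral inequality of the one-winner test. -/
theorem one_main :
    ∑ b, ∫⁻ ω, (((∑ e ∈ N, if tst N (sam ω) b e (val ω e) then val ω e else 0) +
        ((1 : ℕ) : ℝ≥0) * N.sup (sam ω) : ℝ≥0) : ℝ≥0∞) ∂(law D) ≤
      8 * ∑ b, ∫⁻ ω, ((U1 N ω b : ℝ≥0) : ℝ≥0∞) ∂(law D) := by
  have hsup : Measurable fun ω : Outcome E => ((N.sup (sam ω) : ℝ≥0) : ℝ≥0∞) :=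
    (measurable_finset_sup N (fun e ω => sam ω e) measurable_sam).coe_nnreal_ennreal
  have h1 : ∑ b, ∫⁻ ω, (((∑ e ∈ N, if tst N (sam ω) b e (val ω e) then val ω e else 0) +
        ((1 : ℕ) : ℝ≥0) * N.sup (sam ω) : ℝ≥0) : ℝ≥0∞) ∂(law D) =
      ∑ b, ∫⁻ ω, ((∑ e ∈ N, if Pp N ω b e then val ω e else 0 : ℝ≥0) : ℝ≥0∞) ∂(law D) +
      ∑ b : E → Bool, ∫⁻ ω : Outcome E, ((N.sup (sam ω) : ℝ≥0) : ℝ≥0∞) ∂(law D) := by
    rw [← Finset.sum_add_distrib]
    refine Finset.sum_congr rfl fun b _ => ?_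
    rw [← lintegral_add_right _ hsup]
    refine lintegral_congr fun ω => ?_
    rw [Nat.cast_one, one_mul, ENNReal.coe_add]
    rfl
  rw [h1]
  calc _ ≤ ∑ b : E → Bool, ∫⁻ ω : Outcome E, ((N.sup (sam ω) : ℝ≥0) : ℝ≥0∞) ∂(law D) +
        ∑ b : E → Bool, ∫⁻ ω : Outcome E, ((N.sup (sam ω) : ℝ≥0) : ℝ≥0∞) ∂(law D) :=
        add_le_add (e_one N D) le_rfl
    _ = 2 * ∑ b : E → Bool, ∫⁻ ω : Outcome E, ((N.sup (sam ω) : ℝ≥0) : ℝ≥0∞) ∂(law D) :=
        (two_mul _).symm
    _ ≤ 2 * (2 * ∑ b, ∫⁻ ω, ((Xt N ω b : ℝ≥0) : ℝ≥0∞) ∂(law D)) := by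
        gcongr
        exact e_two N D
    _ ≤ 2 * (2 * (2 * ∑ b, ∫⁻ ω, ((U1 N ω b : ℝ≥0) : ℝ≥0∞) ∂(law D))) := by
        gcongr
        exact e_three N D
    _ = _ := by ring

end Vale.Agent.Lib.P331
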