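import Vale.Agent.Lib.P331.TopMain
import Vale.Agent.Lib.P331.OneMain

/-!
# P331: the final theorems
-/

open MeasureTheory Finset
open scoped NNReal ENNReal Classical

namespace Vale.Agent.Lib.P331

variable {E : Type} [Fintype E]

theorem val_le_opt (M : Matroid E) (v : E → ℝ≥0) (e : E) (he : e ∈ nl M) : v e ≤ opt M v := by
  have h1 : ({e} : Finset E) ∈ univ.filter fun I : Finset E => M.Indep (I : Set E) := by
    refine mem_filter.2 ⟨mem_univ _, ?_⟩
    simpa using mem_nl.1 he
  unfold opt
  calc v e = ∑ e' ∈ ({e} : Finset E), v e' := by simp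
    _ ≤ _ := Finset.le_sup (f := fun I : Finset E => ∑ e ∈ I, v e) h1

/-- The rule for large capacity. -/
theorem top_rule (M : Matroid E) (k j L : ℕ) (hj : 1 ≤ j) (hk : 2 * (j + 1) ≤ k)
    (hcap : ∀ I : Finset E, I.card ≤ k → (∀ e ∈ I, M.Indep ({e} : Set E)) → M.Indep (I : Set E))
    (hr : M.eRank.toNat ≤ j * 2 ^ L) :
    ∃ rule : OnlineRule E (Seed E L), rule.KeepsIndep M ∧ rule.IsMeasurable ∧
      rule.Competitive M ((1 : ℝ≥0) / (8 * ((L : ℝ≥0) + 1))) := by
  have hT : Measurable fun ω : Outcome E => topT (nl M) j (sam ω) :=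
    measurable_topT (nl M) j (s := fun ω => sam ω) measurable_sam
  refine ⟨grRule M (lvlOk (fun s _ e v => Pass (nl M) j s e v) (topT (nl M) j) L),
    keepsIndep_grRule _ _, isMeasurable_grRule _ _ fun ρ e => ?_, ?_⟩
  · exact measurableSet_lvlOk _ _ _ (fun _ e => measurableSet_pass_val (nl M) j e) hT ρ e
  · refine competitive_of_levels M (fun s _ e v => Pass (nl M) j s e v) (topT (nl M) j) j L hr hT
      (fun ω _ e _ h => le_topT_of_fail (nl M) j hj _ _ _ h)
      (fun ω _ => ((∑ e ∈ nl M, Gm (nl M) j k e ω : ℝ≥0) : ℝ≥0∞))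
      (fun _ => (Finset.measurable_sum _ fun e _ => measurable_Gm (nl M) j k e).coe_nnreal_ennreal)
      ?_ ?_
    · intro ω _ l hl
      rw [ENNReal.coe_le_coe]
      by_cases hPc : Pc (nl M) j ω ≤ k
      · set P := (nl M).filter fun f => Pass (nl M) j (sam ω) f (val ω f) with hPdef
        set ok : E → ℝ≥0 → Prop := fun e v => Pass (nl M) j (sam ω) e v with hok
        have hP : M.Indep (P : Set E) :=
          hcap P hPc fun e he => mem_nl.1 (mem_filter.1 he).1
        have h1 : P.card ≤ (grAcc M ok (arrivalsOf (val ω) l)).card :=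
          card_le_grAcc M ok (val ω) l hl P hP fun e he => (mem_filter.1 he).2
        have h2 : grAcc M ok (arrivalsOf (val ω) l) ⊆ P := by
          intro e he
          refine mem_filter.2 ⟨mem_nl.2 ((grAcc_indep M ok (arrivalsOf (val ω) l)).subset ?_),
            grAcc_ok M ok _ _ _ he⟩
          exact Set.singleton_subset_iff.2 (by exact_mod_cast he)
        have h3 : P = grAcc M ok (arrivalsOf (val ω) l) := (eq_of_subset_of_card_le h2 h1).symm
        change ∑ e ∈ nl M, Gm (nl M) j k e ω ≤ ∑ e ∈ grAcc M ok (arrivalsOf (val ω) l), val ω e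
        rw [← h3, hPdef, Finset.sum_filter]
        refine Finset.sum_le_sum fun e _ => ?_
        unfold Gm
        rw [if_pos hPc]
        unfold Fe
        by_cases hc : InTop (nl M) j (xm ω) e ∧ sam ω e ≤ val ω e
        · rw [if_pos hc, if_pos]
          exact pass_of_inTop (nl M) j (sam_le_xm ω) (max_eq_right hc.2) hc.1
        · rw [if_neg hc]
          exact zero_le
      · have : ∑ e ∈ nl M, Gm (nl M) j k e ω = 0 :=
          Finset.sum_eq_zero fun e _ => if_neg hPc
        change ∑ e ∈ nl M, Gm (nl M) j k e ω ≤ _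
        rw [this]
        exact zero_le
    · intro D _ hfin
      have hF : ∀ e ∈ nl M, ∫⁻ ω, (Fe (nl M) j e ω : ℝ≥0∞) ∂(law D) ≠ ∞ := by
        intro e he
        refine ne_top_of_le_ne_top hfin (lintegral_mono fun ω => ENNReal.coe_le_coe.2 ?_)
        refine le_trans ?_ (val_le_opt M (val ω) e he)
        unfold Fe
        split_ifs
        · exact le_rfl
        · exact zero_le
      have := top_main (nl M) j k D hk hF
      rw [Finset.mul_sum]
      exact Finset.sum_le_sum fun _ _ => this

/-- The rule that works for all matroids. -/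
theorem one_rule (M : Matroid E) (L : ℕ) (hr : M.eRank.toNat ≤ 1 * 2 ^ L) :
    ∃ rule : OnlineRule E (Seed E L), rule.KeepsIndep M ∧ rule.IsMeasurable ∧
      rule.Competitive M ((1 : ℝ≥0) / (8 * ((L : ℝ≥0) + 1))) := by
  have hT : Measurable fun ω : Outcome E => (nl M).sup (sam ω) :=
    measurable_finset_sup (nl M) (fun e ω => sam ω e) measurable_sam
  refine ⟨grRule M (lvlOk (tst (nl M)) (fun s => (nl M).sup s) L),
    keepsIndep_grRule _ _, isMeasurable_grRule _ _ fun ρ e => ?_, ?_⟩
  · exact measurableSet_lvlOk _ _ _ (fun b e => mset_Pp (nl M) b e) hT ρ e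
  · refine competitive_of_levels M (tst (nl M)) (fun s => (nl M).sup s) 1 L hr hT
      (fun ω b e he h => le_sup_of_fail (nl M) (sam ω) b e (mem_nl.2 he) _ h)
      (fun ω b => ((U1 (nl M) ω b : ℝ≥0) : ℝ≥0∞))
      (fun b => (measurable_U1 (nl M) b).coe_nnreal_ennreal)
      ?_ (fun D _ _ => one_main (nl M) D)
    · intro ω b l hl
      rw [ENNReal.coe_le_coe]
      set ok : E → ℝ≥0 → Prop := tst (nl M) (sam ω) b with hok
      set A := grAcc M ok (arrivalsOf (val ω) l) with hA
      refine sum_ite_le (nl M) _ (fun e _ f hf h1 h2 => ?_) _ _ fun t ht hup => ?_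
      · by_contra hne
        exact h1.2 f hf (Ne.symm hne) h2.1
      · -- the unique winner is accepted
        have hI : M.Indep ((({t} : Finset E)) : Set E) := by simpa using mem_nl.1 ht
        have h1 := card_le_grAcc M ok (val ω) l hl {t} hI (fun e he => by
          rw [mem_singleton] at he
          rw [he]
          exact hup.1)
        have hne : A.Nonempty := by
          rw [← card_pos]
          simpa using h1
        obtain ⟨a, ha⟩ := hne
        have hat : a = t := by
          by_contra hne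
          have hand : a ∈ nl M := by
            refine mem_nl.2 ((grAcc_indep M ok (arrivalsOf (val ω) l)).subset ?_)
            exact Set.singleton_subset_iff.2 (by exact_mod_cast ha)
          exact hup.2 a hand hne (grAcc_ok M ok _ _ _ ha)
        rw [hat] at ha
        exact Finset.single_le_sum (f := fun e => val ω e) (fun _ _ => zero_le) ha

/-- The main theorem: for every finite matroid and every capacity `k`, the level rule with the
appropriate level-`0` test. -/
theorem main_capacity (M : Matroid E) (k : ℕ) (hk : 1 ≤ k)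
    (hcap : ∀ I : Finset E, I.card ≤ k → (∀ e ∈ I, M.Indep ({e} : Set E)) → M.Indep (I : Set E)) :
    ∃ rule : OnlineRule E (Seed E (Nat.clog 2 (M.eRank.toNat / k + 1) + 3)),
      rule.KeepsIndep M ∧ rule.IsMeasurable ∧
      rule.Competitive M ((1 : ℝ≥0) / (8 * ((Nat.clog 2 (M.eRank.toNat / k + 1) : ℝ≥0) + 4))) := by
  set c := Nat.clog 2 (M.eRank.toNat / k + 1) with hc
  have h1 : M.eRank.toNat < k * (M.eRank.toNat / k + 1) := Nat.lt_mul_div_succ _ hk
  have h2 : M.eRank.toNat / k + 1 ≤ 2 ^ c := Nat.le_pow_clog (by norm_num) _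
  have h3 : M.eRank.toNat ≤ k * 2 ^ c := by
    calc M.eRank.toNat ≤ k * (M.eRank.toNat / k + 1) := h1.le
      _ ≤ k * 2 ^ c := Nat.mul_le_mul_left _ h2
  have hconst : (((c + 3 : ℕ) : ℝ≥0) + 1) = (c : ℝ≥0) + 4 := by
    push_cast
    ring
  rw [← hconst]
  have hpow : 2 ^ (c + 3) = 8 * 2 ^ c := by
    rw [pow_add]
    ring
  by_cases h4 : 4 ≤ k
  · refine top_rule M k (k / 2 - 1) (c + 3) (by omega) (by omega) hcap ?_
    rw [hpow]
    have h5 : k ≤ 8 * (k / 2 - 1) := by omega
    calc M.eRank.toNat ≤ k * 2 ^ c := h3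
      _ ≤ (8 * (k / 2 - 1)) * 2 ^ c := Nat.mul_le_mul_right _ h5
      _ = (k / 2 - 1) * (8 * 2 ^ c) := by ring
  · refine one_rule M (c + 3) ?_
    rw [hpow, one_mul]
    have h5 : k ≤ 8 := by omega
    exact h3.trans (Nat.mul_le_mul_right _ h5)

end Vale.Agent.Lib.P331
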