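import Vale.Agent.Lib.P331.Greedy

/-!
# P331: exchanging sample and value of one element; measurability helpers
-/

open MeasureTheory Finset
open scoped NNReal ENNReal Classical

namespace Vale.Agent.Lib.P331

variable {E : Type}

/-- Exchange sample and value of the element `e`. -/
noncomputable def flip (e : E) (ω : Outcome E) : Outcome E :=
  fun g => (if g = e then Prod.swap else id) (ω g)

theorem flip_flip (e : E) (ω : Outcome E) : flip e (flip e ω) = ω := by
  funext g
  by_cases h : g = e <;> simp [flip, h]

theorem sam_flip_self (e : E) (ω : Outcome E) : sam (flip e ω) e = val ω e := by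
  simp [sam, val, flip]

theorem val_flip_self (e : E) (ω : Outcome E) : val (flip e ω) e = sam ω e := by
  simp [sam, val, flip]

theorem sam_flip_ne {e g : E} (h : g ≠ e) (ω : Outcome E) : sam (flip e ω) g = sam ω g := by
  simp [sam, flip, h]

theorem val_flip_ne {e g : E} (h : g ≠ e) (ω : Outcome E) : val (flip e ω) g = val ω g := by
  simp [val, flip, h]

/-- The maximum of sample and value. -/
noncomputable def xm (ω : Outcome E) : E → ℝ≥0 := fun e => max (sam ω e) (val ω e)

theorem xm_flip (e : E) (ω : Outcome E) : xm (flip e ω) = xm ω := by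
  funext g
  by_cases h : g = e
  · subst h
    simp [xm, sam_flip_self, val_flip_self, max_comm]
  · simp [xm, sam_flip_ne h, val_flip_ne h]

theorem sam_le_xm (ω : Outcome E) (e : E) : sam ω e ≤ xm ω e := le_max_left _ _

theorem val_le_xm (ω : Outcome E) (e : E) : val ω e ≤ xm ω e := le_max_right _ _

theorem measurable_sam (e : E) : Measurable fun ω : Outcome E => sam ω e :=
  measurable_fst.comp (measurable_pi_apply e)

theorem measurable_val (e : E) : Measurable fun ω : Outcome E => val ω e :=
  measurable_snd.comp (measurable_pi_apply e)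

theorem measurable_xm (e : E) : Measurable fun ω : Outcome E => xm ω e :=
  (measurable_sam e).max (measurable_val e)

theorem measurable_flip [Finite E] (e : E) : Measurable (flip e : Outcome E → Outcome E) := by
  refine measurable_pi_lambda _ fun g => ?_
  by_cases h : g = e
  · simp only [flip, h, if_true]
    exact measurable_swap.comp (measurable_pi_apply e)
  · simp only [flip, h, if_false]
    exact measurable_pi_apply g

variable [Fintype E]

/-- The exchange preserves the law. -/
theorem measurePreserving_flip (D : E → Measure ℝ≥0) [∀ e, IsProbabilityMeasure (D e)] (e : E) :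
    MeasurePreserving (flip e : Outcome E → Outcome E) (law D) (law D) := by
  refine measurePreserving_pi (fun e => (D e).prod (D e)) (fun e => (D e).prod (D e)) fun g => ?_
  by_cases h : g = e
  · simp only [h, if_true]
    exact Measure.measurePreserving_swap
  · simp only [h, if_false]
    exact MeasurePreserving.id _

/-- The exchange as a measurable equivalence. -/
noncomputable def flipEquiv (e : E) : Outcome E ≃ᵐ Outcome E where
  toFun := flip e
  invFun := flip e
  left_inv := flip_flip e
  right_inv := flip_flip e
  measurable_toFun := measurable_flip e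
  measurable_invFun := measurable_flip e

/-- Integrals are unchanged by the exchange, measurable or not. -/
theorem lintegral_flip (D : E → Measure ℝ≥0) [∀ e, IsProbabilityMeasure (D e)] (e : E)
    (f : Outcome E → ℝ≥0∞) : ∫⁻ ω, f (flip e ω) ∂(law D) = ∫⁻ ω, f ω ∂(law D) :=
  (measurePreserving_flip D e).lintegral_comp_emb (flipEquiv e).measurableEmbedding f

omit [Fintype E] in
/-- Negate the bit of `e`. -/
noncomputable def flipC (e : E) (b : E → Bool) : E → Bool := Function.update b e (!b e)

omit [Fintype E] in
theorem flipC_flipC (e : E) (b : E → Bool) : flipC e (flipC e b) = b := by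
  funext g
  by_cases h : g = e
  · subst h; simp [flipC]
  · simp [flipC, h]

omit [Fintype E] in
theorem flipC_self (e : E) (b : E → Bool) : flipC e b e = !b e := by simp [flipC]

omit [Fintype E] in
theorem flipC_ne {e g : E} (h : g ≠ e) (b : E → Bool) : flipC e b g = b g := by simp [flipC, h]

theorem sum_flipC {A : Type} [AddCommMonoid A] (e : E) (f : (E → Bool) → A) :
    ∑ b, f (flipC e b) = ∑ b, f b :=
  Function.Bijective.sum_comp (Function.Involutive.bijective (flipC_flipC e)) f

/-- The basic exchange inequality: no measurability needed. -/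
theorem sum_lintegral_le_of_flip (D : E → Measure ℝ≥0) [∀ e, IsProbabilityMeasure (D e)] (e : E)
    (g h : Outcome E → (E → Bool) → ℝ≥0∞) (H : ∀ ω b, g ω b ≤ h (flip e ω) (flipC e b)) :
    ∑ b, ∫⁻ ω, g ω b ∂(law D) ≤ ∑ b, ∫⁻ ω, h ω b ∂(law D) := by
  calc ∑ b, ∫⁻ ω, g ω b ∂(law D) ≤ ∑ b, ∫⁻ ω, h (flip e ω) (flipC e b) ∂(law D) :=
        Finset.sum_le_sum fun b _ => lintegral_mono fun ω => H ω b
    _ = ∑ b, ∫⁻ ω, h ω (flipC e b) ∂(law D) := by
        refine Finset.sum_congr rfl fun b _ => ?_
        exact lintegral_flip D e fun ω => h ω (flipC e b)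
    _ = ∑ b, ∫⁻ ω, h ω b ∂(law D) := sum_flipC e fun b => ∫⁻ ω, h ω b ∂(law D)

/-- Tie-free comparison keys: an injection of the elements into the natural numbers. -/
noncomputable def idx (e : E) : ℕ := (Fintype.equivFin E e : ℕ)

theorem idx_inj : Function.Injective (idx : E → ℕ) := fun a b h => by
  have : (Fintype.equivFin E a) = Fintype.equivFin E b := Fin.ext h
  exact (Fintype.equivFin E).injective this

/-- The comparison key of the number `a` attached to the element `e`. -/
noncomputable def key (a : ℝ≥0) (e : E) : ℝ≥0 ×ₗ ℕ := toLex (a, idx e)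

theorem key_lt_iff {a b : ℝ≥0} {e f : E} :
    key a e < key b f ↔ a < b ∨ (a = b ∧ idx e < idx f) := by
  simp [key, Prod.Lex.toLex_lt_toLex]

theorem le_of_key_lt {a b : ℝ≥0} {e f : E} (h : key a e < key b f) : a ≤ b := by
  rcases key_lt_iff.1 h with h | ⟨h, _⟩
  · exact h.le
  · exact h.le

theorem le_of_key_le {a b : ℝ≥0} {e f : E} (h : key a e ≤ key b f) : a ≤ b := by
  rcases h.lt_or_eq with h | h
  · exact le_of_key_lt h
  · have : (a, idx e) = (b, idx f) := by simpa [key] using h
    exact (Prod.ext_iff.1 this).1.le

theorem key_le_same {a b : ℝ≥0} (e : E) (h : a ≤ b) : key a e ≤ key b e := by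
  rcases h.lt_or_eq with h | h
  · exact (key_lt_iff.2 (Or.inl h)).le
  · rw [h]

theorem key_ne {a b : ℝ≥0} {e f : E} (h : e ≠ f) : key a e ≠ key b f := by
  intro hc
  have : (a, idx e) = (b, idx f) := by simpa [key] using hc
  exact h (idx_inj (Prod.ext_iff.1 this).2)

theorem key_lt_of_lt {a b : ℝ≥0} (e f : E) (h : a < b) : key a e < key b f :=
  key_lt_iff.2 (Or.inl h)

section meas

variable {Ω : Type} [MeasurableSpace Ω]

theorem measurableSet_key_lt {a b : Ω → ℝ≥0} (ha : Measurable a) (hb : Measurable b) (e f : E) :
    MeasurableSet {ω | key (a ω) e < key (b ω) f} := by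
  have : {ω | key (a ω) e < key (b ω) f} =
      {ω | a ω < b ω} ∪ ({ω | a ω = b ω} ∩ {_ω | idx e < idx f}) := by
    ext ω
    simp [key_lt_iff]
  rw [this]
  exact (measurableSet_lt ha hb).union ((measurableSet_eq_fun ha hb).inter (MeasurableSet.const _))

theorem measurable_card_filter {F : Type} (s : Finset F) (p : F → Ω → Prop)
    (h : ∀ e, MeasurableSet {ω | p e ω}) :
    Measurable fun ω => (s.filter fun e => p e ω).card := by
  have : (fun ω => (s.filter fun e => p e ω).card) =
      fun ω => ∑ e ∈ s, if p e ω then 1 else 0 := by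
    funext ω
    exact Finset.card_filter _ _
  rw [this]
  exact Finset.measurable_sum _ fun e _ => Measurable.ite (h e) measurable_const measurable_const

theorem measurable_finset_sup {F : Type} (s : Finset F) (f : F → Ω → ℝ≥0)
    (h : ∀ e, Measurable (f e)) : Measurable fun ω => s.sup fun e => f e ω := by
  induction s using Finset.induction_on with
  | empty => simp
  | insert a s _ ih =>
    simp only [Finset.sup_insert]
    exact (h a).sup ih

end meas

end Vale.Agent.Lib.P331
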