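import Vale.Agent.Lib.P331.Defs

/-!
# P331: threshold tests and the greedy acceptance
-/

open MeasureTheory Finset
open scoped NNReal ENNReal Classical

namespace Vale.Agent.Lib.P331

variable {E R : Type}

/-- Accept greedily the elements that pass a test, keeping independence. -/
noncomputable def grStep (M : Matroid E) (ok : E → ℝ≥0 → Prop) (A : Finset E) (x : E × ℝ≥0) :
    Finset E :=
  if ok x.1 x.2 ∧ M.Indep ((insert x.1 A : Finset E) : Set E) then insert x.1 A else A

/-- The greedy accepted set after a list of arrivals. -/
noncomputable def grAcc (M : Matroid E) (ok : E → ℝ≥0 → Prop) (h : List (E × ℝ≥0)) : Finset E :=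
  h.foldl (grStep M ok) ∅

/-- The online rule given by a family of tests, one for each value of samples and seed. -/
noncomputable def grRule (M : Matroid E) (ok : (E → ℝ≥0) → R → E → ℝ≥0 → Prop) : OnlineRule E R where
  decide s ρ h e v := ok s ρ e v ∧ M.Indep ((insert e (grAcc M (ok s ρ) h) : Finset E) : Set E)

theorem grAcc_append (M : Matroid E) (ok : E → ℝ≥0 → Prop) (h : List (E × ℝ≥0)) (x : E × ℝ≥0) :
    grAcc M ok (h ++ [x]) = grStep M ok (grAcc M ok h) x := by
  simp [grAcc, List.foldl_append]

theorem grRule_fold (M : Matroid E) (ok : (E → ℝ≥0) → R → E → ℝ≥0 → Prop) (s : E → ℝ≥0) (ρ : R)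
    (l h : List (E × ℝ≥0)) :
    l.foldl ((grRule M ok).step s ρ) (h, grAcc M (ok s ρ) h) =
      (h ++ l, grAcc M (ok s ρ) (h ++ l)) := by
  induction l generalizing h with
  | nil => simp
  | cons x l ih =>
    have e1 : (grRule M ok).step s ρ (h, grAcc M (ok s ρ) h) x =
        (h ++ [x], grAcc M (ok s ρ) (h ++ [x])) := by
      rw [grAcc_append]
      unfold OnlineRule.step grStep
      by_cases hc : ok s ρ x.1 x.2 ∧ M.Indep ((insert x.1 (grAcc M (ok s ρ) h) : Finset E) : Set E)
      · have hc' : (grRule M ok).decide s ρ h x.1 x.2 := hc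
        simp only [if_pos hc', if_pos hc]
      · have hc' : ¬ (grRule M ok).decide s ρ h x.1 x.2 := hc
        simp only [if_neg hc', if_neg hc]
    rw [List.foldl_cons, e1, ih]
    simp

theorem grRule_accepted (M : Matroid E) (ok : (E → ℝ≥0) → R → E → ℝ≥0 → Prop) (s : E → ℝ≥0) (ρ : R)
    (l : List (E × ℝ≥0)) : (grRule M ok).accepted s ρ l = grAcc M (ok s ρ) l := by
  have := grRule_fold M ok s ρ l []
  simp only [List.nil_append] at this
  have h0 : grAcc M (ok s ρ) ([] : List (E × ℝ≥0)) = ∅ := rfl
  rw [h0] at this
  simp [OnlineRule.accepted, this]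

section greedy

variable (M : Matroid E) (ok : E → ℝ≥0 → Prop)

private theorem fold_subset (l : List (E × ℝ≥0)) (A : Finset E) :
    A ⊆ l.foldl (grStep M ok) A := by
  induction l generalizing A with
  | nil => simp
  | cons x l ih =>
    rw [List.foldl_cons]
    refine subset_trans ?_ (ih _)
    unfold grStep
    split_ifs
    · exact subset_insert _ _
    · exact subset_refl _

private theorem fold_indep (l : List (E × ℝ≥0)) (A : Finset E) (hA : M.Indep (A : Set E)) :
    M.Indep ((l.foldl (grStep M ok) A : Finset E) : Set E) := by
  induction l generalizing A with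
  | nil => simpa using hA
  | cons x l ih =>
    rw [List.foldl_cons]
    apply ih
    unfold grStep
    split_ifs with h
    · exact h.2
    · exact hA

private theorem fold_ok (l : List (E × ℝ≥0)) (A : Finset E) (e : E)
    (he : e ∈ l.foldl (grStep M ok) A) : e ∈ A ∨ ∃ x ∈ l, x.1 = e ∧ ok x.1 x.2 := by
  induction l generalizing A with
  | nil => left; simpa using he
  | cons x l ih =>
    rw [List.foldl_cons] at he
    rcases ih _ he with h | ⟨y, hy, h1, h2⟩
    · unfold grStep at h
      split_ifs at h with hc
      · rcases mem_insert.1 h with h' | h'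
        · right
          exact ⟨x, by simp, h'.symm, hc.1⟩
        · left; exact h'
      · left; exact h
    · right
      exact ⟨y, by simp [hy], h1, h2⟩

private theorem fold_max (l : List (E × ℝ≥0)) (A : Finset E) (x : E × ℝ≥0) (hx : x ∈ l)
    (hok : ok x.1 x.2) (hind : M.Indep ((l.foldl (grStep M ok) A : Finset E) : Set E)) :
    x.1 ∈ l.foldl (grStep M ok) A ∨
      ¬ M.Indep ((insert x.1 (l.foldl (grStep M ok) A) : Finset E) : Set E) := by
  induction l generalizing A with
  | nil => simp at hx
  | cons y l ih =>
    rw [List.foldl_cons] at hind ⊢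
    rcases List.mem_cons.1 hx with rfl | hx'
    · by_cases hi : M.Indep ((insert x.1 A : Finset E) : Set E)
      · left
        apply fold_subset
        unfold grStep
        rw [if_pos ⟨hok, hi⟩]
        exact mem_insert_self _ _
      · by_cases hmem : x.1 ∈ l.foldl (grStep M ok) (grStep M ok A x)
        · left; exact hmem
        right
        intro hcon
        apply hi
        apply hcon.subset
        intro z hz
        have hz' : z ∈ insert x.1 A := by exact_mod_cast hz
        rcases mem_insert.1 hz' with rfl | hzA
        · simp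
        · have h1 : A ⊆ grStep M ok A x := by
            unfold grStep
            split_ifs
            · exact subset_insert _ _
            · exact subset_refl _
          have h2 := fold_subset M ok l _ (h1 hzA)
          have h3 : z ∈ insert x.1 (l.foldl (grStep M ok) (grStep M ok A x)) :=
            mem_insert_of_mem h2
          exact_mod_cast h3
    · exact ih _ hx' hind

/-- The greedy set is independent. -/
theorem grAcc_indep (h : List (E × ℝ≥0)) : M.Indep (grAcc M ok h : Set E) :=
  fold_indep M ok h ∅ (by simp)

/-- Every accepted element passed its test. -/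
theorem grAcc_ok (v : E → ℝ≥0) (l : List E) (e : E)
    (he : e ∈ grAcc M ok (arrivalsOf v l)) : ok e (v e) := by
  rcases fold_ok M ok _ ∅ e he with h | ⟨x, hx, h1, h2⟩
  · simp at h
  · simp only [arrivalsOf, List.mem_map] at hx
    obtain ⟨y, _, rfl⟩ := hx
    subst h1
    exact h2

/-- Any independent set of elements that pass the test is at most as large as the greedy set. -/
theorem card_le_grAcc (v : E → ℝ≥0) (l : List E) (hl : ∀ e, e ∈ l) (I : Finset E)
    (hI : M.Indep (I : Set E)) (hok : ∀ e ∈ I, ok e (v e)) :
    I.card ≤ (grAcc M ok (arrivalsOf v l)).card := by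
  by_contra hlt
  push Not at hlt
  obtain ⟨e, heI, heA, hins⟩ := Matroid.Indep.augment_finset (grAcc_indep M ok _) hI hlt
  have hx : (e, v e) ∈ arrivalsOf v l := by
    simp only [arrivalsOf, List.mem_map]
    exact ⟨e, hl e, rfl⟩
  rcases fold_max M ok _ ∅ (e, v e) hx (hok e heI) (grAcc_indep M ok _) with h | h
  · exact heA h
  · exact h (by exact_mod_cast hins)

end greedy

end Vale.Agent.Lib.P331
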