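import Vale.Agent.Lib.P331.Flip

/-!
# P331: the level structure of the rule and the generic competitive bound
-/

open MeasureTheory Finset
open scoped NNReal ENNReal Classical

namespace Vale.Agent.Lib.P331

variable {E : Type}

section general

variable {R : Type}

/-- A greedy rule keeps independence. -/
theorem keepsIndep_grRule (M : Matroid E) (ok : (E → ℝ≥0) → R → E → ℝ≥0 → Prop) :
    (grRule M ok).KeepsIndep M := by
  intro s ρ v l
  rw [grRule_accepted]
  exact grAcc_indep M _ _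

private theorem measurableSet_fold (M : Matroid E) (ok : (E → ℝ≥0) → R → E → ℝ≥0 → Prop) (ρ : R)
    (hok : ∀ e, MeasurableSet {ω : Outcome E | ok (sam ω) ρ e (val ω e)}) (l : List E)
    (A₀ A : Finset E) :
    MeasurableSet {ω : Outcome E |
      (arrivalsOf (val ω) l).foldl (grStep M (ok (sam ω) ρ)) A₀ = A} := by
  induction l generalizing A₀ with
  | nil => simp [arrivalsOf]
  | cons e l ih =>
    simp only [arrivalsOf, List.map_cons, List.foldl_cons]
    by_cases hI : M.Indep ((insert e A₀ : Finset E) : Set E)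
    · have : {ω : Outcome E | ((l.map fun e => (e, val ω e)).foldl (grStep M (ok (sam ω) ρ))
            (grStep M (ok (sam ω) ρ) A₀ (e, val ω e))) = A} =
          ({ω | ok (sam ω) ρ e (val ω e)} ∩
            {ω | (arrivalsOf (val ω) l).foldl (grStep M (ok (sam ω) ρ)) (insert e A₀) = A}) ∪
          ({ω | ok (sam ω) ρ e (val ω e)}ᶜ ∩
            {ω | (arrivalsOf (val ω) l).foldl (grStep M (ok (sam ω) ρ)) A₀ = A}) := by
        ext ω
        have hI' : M.Indep (insert e (A₀ : Set E)) := by simpa using hI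
        simp only [Set.mem_ofPred_eq, Set.mem_union, Set.mem_inter_iff, Set.mem_compl_iff,
          arrivalsOf, grStep]
        by_cases hc : ok (sam ω) ρ e (val ω e)
        · simp [hc, hI']
        · simp [hc]
      rw [this]
      exact ((hok e).inter (ih _)).union ((hok e).compl.inter (ih _))
    · have : {ω : Outcome E | ((l.map fun e => (e, val ω e)).foldl (grStep M (ok (sam ω) ρ))
            (grStep M (ok (sam ω) ρ) A₀ (e, val ω e))) = A} =
          {ω | (arrivalsOf (val ω) l).foldl (grStep M (ok (sam ω) ρ)) A₀ = A} := by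
        ext ω
        have hI' : ¬ M.Indep (insert e (A₀ : Set E)) := by simpa using hI
        simp only [Set.mem_ofPred_eq, arrivalsOf, grStep]
        simp [hI']
      rw [this]
      exact ih _

/-- A greedy rule with measurable tests is measurable. -/
theorem isMeasurable_grRule (M : Matroid E) (ok : (E → ℝ≥0) → R → E → ℝ≥0 → Prop)
    (hok : ∀ ρ e, MeasurableSet {ω : Outcome E | ok (sam ω) ρ e (val ω e)}) :
    (grRule M ok).IsMeasurable := by
  intro ρ l A
  simp only [grRule_accepted]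
  exact measurableSet_fold M ok ρ (hok ρ) l ∅ A

end general

variable [Fintype E]

/-- The nonloops. -/
noncomputable def nl (M : Matroid E) : Finset E := univ.filter fun e => M.Indep ({e} : Set E)

theorem mem_nl {M : Matroid E} {e : E} : e ∈ nl M ↔ M.Indep ({e} : Set E) := by simp [nl]

/-- The seeds: a level and one bit per element. -/
abbrev Seed (E : Type) (L : ℕ) := Fin (L + 1) × (E → Bool)

/-- The test at each seed: at level `0` the given test, at level `i ≥ 1` the threshold `T / 2 ^ i`. -/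
noncomputable def lvlOk (test : (E → ℝ≥0) → (E → Bool) → E → ℝ≥0 → Prop) (T : (E → ℝ≥0) → ℝ≥0)
    (L : ℕ) : (E → ℝ≥0) → Seed E L → E → ℝ≥0 → Prop :=
  fun s ρ e v => if (ρ.1 : ℕ) = 0 then test s ρ.2 e v else T s / 2 ^ (ρ.1 : ℕ) ≤ v

/-- The value secured at level `i + 1`. -/
noncomputable def lev (M : Matroid E) (T : (E → ℝ≥0) → ℝ≥0) (i : ℕ) (ω : Outcome E) : ℝ≥0 :=
  (univ.filter fun I : Finset E => M.Indep (I : Set E)).sup fun I =>
    (T (sam ω) / 2 ^ (i + 1)) * ((I.filter fun e => T (sam ω) / 2 ^ (i + 1) ≤ val ω e).card : ℝ≥0)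

omit [Fintype E] in
theorem thr_le_accept (M : Matroid E) (θ : ℝ≥0) (ok : E → ℝ≥0 → Prop) (hok : ∀ e v, ok e v ↔ θ ≤ v)
    (v : E → ℝ≥0) (l : List E) (hl : ∀ e, e ∈ l) (I : Finset E) (hI : M.Indep (I : Set E)) :
    θ * ((I.filter fun e => θ ≤ v e).card : ℝ≥0) ≤ ∑ e ∈ grAcc M ok (arrivalsOf v l), v e := by
  have h1 : (I.filter fun e => θ ≤ v e).card ≤ (grAcc M ok (arrivalsOf v l)).card := by
    refine card_le_grAcc M ok v l hl _ (hI.subset ?_) ?_
    · intro z hz
      have hz' : z ∈ I.filter fun e => θ ≤ v e := by exact_mod_cast hz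
      exact_mod_cast (mem_filter.1 hz').1
    · intro e he
      exact (hok _ _).2 (mem_filter.1 he).2
  have h2 : (grAcc M ok (arrivalsOf v l)).card • θ ≤ ∑ e ∈ grAcc M ok (arrivalsOf v l), v e :=
    Finset.card_nsmul_le_sum _ _ _ fun e he => (hok _ _).1 (grAcc_ok M ok v l e he)
  calc θ * ((I.filter fun e => θ ≤ v e).card : ℝ≥0)
      ≤ θ * ((grAcc M ok (arrivalsOf v l)).card : ℝ≥0) := by
        gcongr
    _ = (grAcc M ok (arrivalsOf v l)).card • θ := by rw [nsmul_eq_mul, mul_comm]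
    _ ≤ _ := h2

theorem le_levels (V T : ℝ≥0) (h : V ≤ T) (L : ℕ) :
    V ≤ T / 2 ^ L + 2 * ∑ i ∈ range L, if T / 2 ^ (i + 1) ≤ V then T / 2 ^ (i + 1) else 0 := by
  induction L with
  | zero => simpa using h
  | succ L ih =>
    rw [Finset.sum_range_succ]
    by_cases hc : T / 2 ^ (L + 1) ≤ V
    · rw [if_pos hc]
      have e : T / 2 ^ L = 2 * (T / 2 ^ (L + 1)) := by
        rw [pow_succ]
        field_simp
      calc V ≤ T / 2 ^ L + 2 * ∑ i ∈ range L, (if T / 2 ^ (i + 1) ≤ V then T / 2 ^ (i + 1) else 0) := ih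
        _ = 2 * (T / 2 ^ (L + 1)) + 2 * ∑ i ∈ range L, (if T / 2 ^ (i + 1) ≤ V then T / 2 ^ (i + 1) else 0) := by rw [e]
        _ ≤ _ := by
          rw [mul_add]
          calc _ ≤ T / 2 ^ (L + 1) + (2 * ∑ i ∈ range L, (if T / 2 ^ (i + 1) ≤ V then T / 2 ^ (i + 1) else 0)
                + 2 * (T / 2 ^ (L + 1))) := by
                rw [add_comm (2 * (T / 2 ^ (L + 1)))]
                exact le_add_self
            _ = _ := rfl
    · rw [if_neg hc]
      push Not at hc
      exact hc.le.trans le_self_add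

theorem card_le_rank (M : Matroid E) (I : Finset E) (hI : M.Indep (I : Set E)) :
    I.card ≤ M.eRank.toNat := by
  have h := hI.encard_le_eRank
  rw [Set.encard_coe_eq_coe_finsetCard] at h
  have : M.Finite := ⟨Set.toFinite _⟩
  have hne : M.eRank ≠ ⊤ := (Matroid.eRank_ne_top_iff M).2 inferInstance
  have := ENat.toNat_le_toNat h hne
  simpa using this

/-- The pointwise bound on the optimum. -/
theorem opt_le (M : Matroid E) (test : (E → ℝ≥0) → (E → Bool) → E → ℝ≥0 → Prop)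
    (T : (E → ℝ≥0) → ℝ≥0) (j L : ℕ) (hr : M.eRank.toNat ≤ j * 2 ^ L) (ω : Outcome E) (b : E → Bool)
    (hfail : ∀ e, M.Indep ({e} : Set E) → ¬ test (sam ω) b e (val ω e) → val ω e ≤ T (sam ω)) :
    opt M (val ω) ≤ (∑ e ∈ nl M, if test (sam ω) b e (val ω e) then val ω e else 0) +
      j * T (sam ω) + 2 * ∑ i ∈ range L, lev M T i ω := by
  refine Finset.sup_le fun I hI => ?_
  have hI' : M.Indep (I : Set E) := (mem_filter.1 hI).2
  have hIN : I ⊆ nl M := by
    intro e he
    refine mem_nl.2 (hI'.subset ?_)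
    simpa using he
  have hpt : ∀ e ∈ I, val ω e ≤ (if test (sam ω) b e (val ω e) then val ω e else 0) +
      (T (sam ω) / 2 ^ L + 2 * ∑ i ∈ range L,
        if T (sam ω) / 2 ^ (i + 1) ≤ val ω e then T (sam ω) / 2 ^ (i + 1) else 0) := by
    intro e he
    by_cases hc : test (sam ω) b e (val ω e)
    · rw [if_pos hc]
      exact le_self_add
    · rw [if_neg hc, zero_add]
      exact le_levels _ _ (hfail e (mem_nl.1 (hIN he)) hc) L
  calc ∑ e ∈ I, val ω e ≤ ∑ e ∈ I, ((if test (sam ω) b e (val ω e) then val ω e else 0) +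
      (T (sam ω) / 2 ^ L + 2 * ∑ i ∈ range L,
        if T (sam ω) / 2 ^ (i + 1) ≤ val ω e then T (sam ω) / 2 ^ (i + 1) else 0)) :=
        Finset.sum_le_sum hpt
    _ = (∑ e ∈ I, if test (sam ω) b e (val ω e) then val ω e else 0) +
        (I.card : ℝ≥0) * (T (sam ω) / 2 ^ L) +
        2 * ∑ i ∈ range L, ((T (sam ω) / 2 ^ (i + 1)) *
          ((I.filter fun e => T (sam ω) / 2 ^ (i + 1) ≤ val ω e).card : ℝ≥0)) := by
        rw [Finset.sum_add_distrib, Finset.sum_add_distrib, Finset.sum_const, nsmul_eq_mul,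
          add_assoc, ← Finset.mul_sum, Finset.sum_comm]
        congr 3
        refine Finset.sum_congr rfl fun i _ => ?_
        rw [← Finset.sum_filter, Finset.sum_const, nsmul_eq_mul, mul_comm]
    _ ≤ _ := by
        gcongr ?_ + ?_ + 2 * ?_
        · exact Finset.sum_le_sum_of_subset hIN
        · have h1 : (I.card : ℝ≥0) ≤ (j : ℝ≥0) * 2 ^ L := by
            exact_mod_cast (card_le_rank M I hI').trans hr
          calc (I.card : ℝ≥0) * (T (sam ω) / 2 ^ L) ≤ ((j : ℝ≥0) * 2 ^ L) * (T (sam ω) / 2 ^ L) := by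
                gcongr
            _ = j * T (sam ω) := by
                field_simp
        · refine Finset.sum_le_sum fun i _ => ?_
          unfold lev
          exact Finset.le_sup (f := fun I : Finset E => (T (sam ω) / 2 ^ (i + 1)) *
            ((I.filter fun e => T (sam ω) / 2 ^ (i + 1) ≤ val ω e).card : ℝ≥0)) hI

theorem measurable_lev (M : Matroid E) (T : (E → ℝ≥0) → ℝ≥0)
    (hT : Measurable fun ω : Outcome E => T (sam ω)) (i : ℕ) :
    Measurable fun ω : Outcome E => lev M T i ω := by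
  unfold lev
  refine measurable_finset_sup _ _ fun I => ?_
  refine (hT.div_const _).mul ?_
  refine measurable_from_top.comp (measurable_card_filter I _ fun e => ?_)
  exact measurableSet_le (hT.div_const _) (measurable_val e)

omit [Fintype E] in
/-- Measurability of all the tests of the level rule. -/
theorem measurableSet_lvlOk (test : (E → ℝ≥0) → (E → Bool) → E → ℝ≥0 → Prop)
    (T : (E → ℝ≥0) → ℝ≥0) (L : ℕ)
    (htest : ∀ b e, MeasurableSet {ω : Outcome E | test (sam ω) b e (val ω e)})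
    (hT : Measurable fun ω : Outcome E => T (sam ω)) (ρ : Seed E L) (e : E) :
    MeasurableSet {ω : Outcome E | lvlOk test T L (sam ω) ρ e (val ω e)} := by
  unfold lvlOk
  by_cases h : (ρ.1 : ℕ) = 0
  · simp only [h, if_true]
    exact htest _ _
  · simp only [h, if_false]
    exact measurableSet_le (hT.div_const _) (measurable_val e)

/-- The generic competitive bound: if the level-`0` test secures a measurable quantity `m₀` whose
integral controls the values of the elements that pass the test and `j` times the threshold `T`,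
then the level rule is `1 / (8 (L + 1))`-competitive. -/
theorem competitive_of_levels (M : Matroid E) (test : (E → ℝ≥0) → (E → Bool) → E → ℝ≥0 → Prop)
    (T : (E → ℝ≥0) → ℝ≥0) (j L : ℕ) (hr : M.eRank.toNat ≤ j * 2 ^ L)
    (hT : Measurable fun ω : Outcome E => T (sam ω))
    (hfail : ∀ ω b e, M.Indep ({e} : Set E) → ¬ test (sam ω) b e (val ω e) → val ω e ≤ T (sam ω))
    (m₀ : Outcome E → (E → Bool) → ℝ≥0∞) (hm₀ : ∀ b, Measurable fun ω => m₀ ω b)
    (hacc : ∀ ω b (l : List E), (∀ e, e ∈ l) →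
      m₀ ω b ≤ ((∑ e ∈ grAcc M (test (sam ω) b) (arrivalsOf (val ω) l), val ω e : ℝ≥0) : ℝ≥0∞))
    (hmain : ∀ (D : E → Measure ℝ≥0) [∀ e, IsProbabilityMeasure (D e)],
      ∫⁻ ω, (opt M (val ω) : ℝ≥0∞) ∂(law D) ≠ ∞ →
      ∑ b, ∫⁻ ω, (((∑ e ∈ nl M, if test (sam ω) b e (val ω e) then val ω e else 0) +
          j * T (sam ω) : ℝ≥0) : ℝ≥0∞) ∂(law D) ≤ 8 * ∑ b, ∫⁻ ω, m₀ ω b ∂(law D)) :
    (grRule M (lvlOk test T L)).Competitive M ((1 : ℝ≥0) / (8 * ((L : ℝ≥0) + 1))) := by
  intro D _ π hπ hfin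
  set O := ∫⁻ ω, (opt M (val ω) : ℝ≥0∞) ∂(law D) with hO
  let A : Outcome E → (E → Bool) → ℝ≥0∞ := fun ω b =>
    (((∑ e ∈ nl M, if test (sam ω) b e (val ω e) then val ω e else 0) + j * T (sam ω) : ℝ≥0) : ℝ≥0∞)
  have hlev : ∀ i, Measurable fun ω : Outcome E => (lev M T i ω : ℝ≥0∞) := fun i =>
    (measurable_lev M T hT i).coe_nnreal_ennreal
  set Li : ℕ → ℝ≥0∞ := fun i => ∫⁻ ω, (lev M T i ω : ℝ≥0∞) ∂(law D) with hLi
  -- the integrated bound on the optimum, for each bit vector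
  have hstep1 : ∀ b, O ≤ ∫⁻ ω, A ω b ∂(law D) + 2 * ∑ i ∈ range L, Li i := by
    intro b
    have h2 : ∫⁻ ω, (2 * ∑ i ∈ range L, (lev M T i ω : ℝ≥0∞)) ∂(law D) =
        2 * ∑ i ∈ range L, Li i := by
      rw [lintegral_const_mul _ (Finset.measurable_sum _ fun i _ => hlev i),
        lintegral_finsetSum _ fun i _ => hlev i]
    calc O ≤ ∫⁻ ω, (A ω b + 2 * ∑ i ∈ range L, (lev M T i ω : ℝ≥0∞)) ∂(law D) := by
          refine lintegral_mono fun ω => ?_
          have := opt_le M test T j L hr ω b (hfail ω b)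
          have h3 : (opt M (val ω) : ℝ≥0∞) ≤ (((∑ e ∈ nl M, if test (sam ω) b e (val ω e) then
              val ω e else 0) + j * T (sam ω) + 2 * ∑ i ∈ range L, lev M T i ω : ℝ≥0) : ℝ≥0∞) := by
            exact_mod_cast this
          refine h3.trans (le_of_eq ?_)
          simp only [A]
          push_cast
          rfl
      _ = ∫⁻ ω, A ω b ∂(law D) + ∫⁻ ω, (2 * ∑ i ∈ range L, (lev M T i ω : ℝ≥0∞)) ∂(law D) := by
          rw [lintegral_add_right]
          exact (Finset.measurable_sum _ fun i _ => hlev i).const_mul _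
      _ = _ := by rw [h2]
  set B : ℝ≥0∞ := ∑ _b : E → Bool, (1 : ℝ≥0∞) with hB
  set Z := ∑ b, ∫⁻ ω, m₀ ω b ∂(law D) + B * ∑ i ∈ range L, Li i with hZ
  have hstep2 : B * O ≤ 8 * Z := by
    calc B * O = ∑ _b : E → Bool, O := by simp [hB]
      _ ≤ ∑ b : E → Bool, (∫⁻ ω, A ω b ∂(law D) + 2 * ∑ i ∈ range L, Li i) :=
          Finset.sum_le_sum fun b _ => hstep1 b
      _ = ∑ b, ∫⁻ ω, A ω b ∂(law D) + B * (2 * ∑ i ∈ range L, Li i) := by
          rw [Finset.sum_add_distrib]
          simp [hB]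
      _ ≤ 8 * ∑ b, ∫⁻ ω, m₀ ω b ∂(law D) + 8 * (B * ∑ i ∈ range L, Li i) := by
          refine add_le_add (hmain D hfin) ?_
          rw [mul_left_comm]
          gcongr
          norm_num
      _ = 8 * Z := by rw [hZ, mul_add]
  -- the accepted value at each seed, in terms of measurable minorants
  have hacc0 : ∀ ω (b : E → Bool) (ρ : Seed E L), ρ = (0, b) →
      m₀ ω b ≤ ((∑ e ∈ (grRule M (lvlOk test T L)).accepted (sam ω) ρ
        (arrivalsOf (val ω) (π ω ρ)), val ω e : ℝ≥0) : ℝ≥0∞) := by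
    intro ω b ρ hρ
    rw [grRule_accepted]
    have hf : lvlOk test T L (sam ω) ρ = test (sam ω) b := by
      funext e v
      simp [lvlOk, hρ]
    rw [hf]
    exact hacc ω b _ (hπ ω ρ).2
  have hacc1 : ∀ ω (b : E → Bool) (i : Fin L) (ρ : Seed E L), ρ = (i.succ, b) →
      (lev M T i ω : ℝ≥0∞) ≤ ((∑ e ∈ (grRule M (lvlOk test T L)).accepted (sam ω) ρ
        (arrivalsOf (val ω) (π ω ρ)), val ω e : ℝ≥0) : ℝ≥0∞) := by
    intro ω b i ρ hρ
    rw [grRule_accepted, ENNReal.coe_le_coe]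
    refine Finset.sup_le fun I hI => ?_
    refine thr_le_accept M _ _ (fun e v => ?_) _ _ (hπ ω ρ).2 I (mem_filter.1 hI).2
    simp [lvlOk, hρ]
  have hstep3 : ∀ ω, ∑ b, (m₀ ω b + ∑ i ∈ range L, (lev M T i ω : ℝ≥0∞)) ≤
      ∑ ρ : Seed E L, ((∑ e ∈ (grRule M (lvlOk test T L)).accepted (sam ω) ρ
        (arrivalsOf (val ω) (π ω ρ)), val ω e : ℝ≥0) : ℝ≥0∞) := by
    intro ω
    rw [Fintype.sum_prod_type_right]
    refine Finset.sum_le_sum fun b _ => ?_
    rw [Fin.sum_univ_succ, Finset.sum_range]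
    exact add_le_add (hacc0 ω b _ rfl) (Finset.sum_le_sum fun i _ => hacc1 ω b i _ rfl)
  set K : ℝ≥0∞ := (Fintype.card (Seed E L) : ℝ≥0∞)⁻¹ with hK
  have hstep4 : K * Z ≤ ∫⁻ ω, K * ∑ ρ : Seed E L,
      ((∑ e ∈ (grRule M (lvlOk test T L)).accepted (sam ω) ρ
        (arrivalsOf (val ω) (π ω ρ)), val ω e : ℝ≥0) : ℝ≥0∞) ∂(law D) := by
    have hZ' : Z = ∫⁻ ω, ∑ b, (m₀ ω b + ∑ i ∈ range L, (lev M T i ω : ℝ≥0∞)) ∂(law D) := by
      have hmm : ∀ b ∈ (univ : Finset (E → Bool)),
          Measurable fun ω => m₀ ω b + ∑ i ∈ range L, (lev M T i ω : ℝ≥0∞) := fun b _ =>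
        (hm₀ b).add (Finset.measurable_sum _ fun i _ => hlev i)
      rw [lintegral_finsetSum _ hmm]
      have : ∀ b : E → Bool, ∫⁻ ω, (m₀ ω b + ∑ i ∈ range L, (lev M T i ω : ℝ≥0∞)) ∂(law D) =
          ∫⁻ ω, m₀ ω b ∂(law D) + ∑ i ∈ range L, Li i := by
        intro b
        rw [lintegral_add_left (hm₀ b), lintegral_finsetSum _ fun i _ => hlev i]
      simp only [this]
      rw [Finset.sum_add_distrib, hZ]
      simp [hB]
    rw [hZ', ← lintegral_const_mul' _ _ (by
      rw [hK]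
      simp [ENNReal.inv_eq_top])]
    exact lintegral_mono fun ω => by
      gcongr
      exact hstep3 ω
  refine le_trans ?_ hstep4
  -- the arithmetic of the constants
  have hcardB : B = ((Fintype.card (E → Bool) : ℝ≥0) : ℝ≥0∞) := by
    simp [hB]
  have hcardR : (Fintype.card (Seed E L) : ℝ≥0∞) = (((L : ℝ≥0) + 1) * (Fintype.card (E → Bool) : ℝ≥0) : ℝ≥0) := by
    rw [Fintype.card_prod, Fintype.card_fin]
    push_cast
    rfl
  have hB0 : (Fintype.card (E → Bool) : ℝ≥0) ≠ 0 := by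
    exact_mod_cast Fintype.card_ne_zero
  have hL0 : ((L : ℝ≥0) + 1) ≠ 0 := by positivity
  have hK' : K = ((((L : ℝ≥0) + 1) * (Fintype.card (E → Bool) : ℝ≥0))⁻¹ : ℝ≥0) := by
    rw [hK, hcardR, ENNReal.coe_inv (mul_ne_zero hL0 hB0)]
  have h8 : (8 : ℝ≥0∞)⁻¹ = ((8 : ℝ≥0)⁻¹ : ℝ≥0) := by
    rw [ENNReal.coe_inv (by norm_num)]
    norm_num
  have hc : (((1 : ℝ≥0) / (8 * ((L : ℝ≥0) + 1)) : ℝ≥0) : ℝ≥0∞) = K * 8⁻¹ * B := by
    rw [hK', hcardB, h8, ← ENNReal.coe_mul, ← ENNReal.coe_mul, ENNReal.coe_inj]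
    field_simp
  have hZ8 : 8⁻¹ * (B * O) ≤ Z := by
    calc 8⁻¹ * (B * O) ≤ 8⁻¹ * (8 * Z) := by gcongr
      _ = Z := by
        rw [← mul_assoc, ENNReal.inv_mul_cancel (by norm_num) (by norm_num), one_mul]
  calc (((1 : ℝ≥0) / (8 * ((L : ℝ≥0) + 1)) : ℝ≥0) : ℝ≥0∞) * O = K * (8⁻¹ * (B * O)) := by
        rw [hc]
        ring
    _ ≤ K * Z := by gcongr

end Vale.Agent.Lib.P331
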