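import Vale.Agent.Lib.P331.Level

/-!
# P331: the one-winner test, valid for every matroid
-/

open MeasureTheory Finset
open scoped NNReal ENNReal Classical

namespace Vale.Agent.Lib.P331

variable {E : Type}

section mset

variable {Ω : Type} [MeasurableSpace Ω] {p q : Ω → Prop}

theorem mset_and (hp : MeasurableSet {ω | p ω}) (hq : MeasurableSet {ω | q ω}) :
    MeasurableSet {ω | p ω ∧ q ω} := by
  have : {ω | p ω ∧ q ω} = {ω | p ω} ∩ {ω | q ω} := by
    ext ω
    simp
  rw [this]
  exact hp.inter hq

theorem mset_or (hp : MeasurableSet {ω | p ω}) (hq : MeasurableSet {ω | q ω}) :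
    MeasurableSet {ω | p ω ∨ q ω} := by
  have : {ω | p ω ∨ q ω} = {ω | p ω} ∪ {ω | q ω} := by
    ext ω
    simp
  rw [this]
  exact hp.union hq

theorem mset_not (hp : MeasurableSet {ω | p ω}) : MeasurableSet {ω | ¬ p ω} := by
  have : {ω | ¬ p ω} = {ω | p ω}ᶜ := by
    ext ω
    simp
  rw [this]
  exact hp.compl

theorem mset_forall {ι : Type} [Countable ι] {r : ι → Ω → Prop}
    (h : ∀ i, MeasurableSet {ω | r i ω}) : MeasurableSet {ω | ∀ i, r i ω} := by
  have : {ω | ∀ i, r i ω} = ⋂ i, {ω | r i ω} := by
    ext ω
    simp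
  rw [this]
  exact MeasurableSet.iInter h

theorem mset_exists {ι : Type} [Countable ι] {r : ι → Ω → Prop}
    (h : ∀ i, MeasurableSet {ω | r i ω}) : MeasurableSet {ω | ∃ i, r i ω} := by
  have : {ω | ∃ i, r i ω} = ⋃ i, {ω | r i ω} := by
    ext ω
    simp
  rw [this]
  exact MeasurableSet.iUnion h

theorem mset_cimp (c : Prop) (hq : MeasurableSet {ω | q ω}) : MeasurableSet {ω | c → q ω} := by
  by_cases hc : c
  · simpa [hc] using hq
  · simp [hc]

theorem mset_cand (c : Prop) (hq : MeasurableSet {ω | q ω}) : MeasurableSet {ω | c ∧ q ω} := by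
  by_cases hc : c
  · simpa [hc] using hq
  · simp [hc]

theorem mset_imp (hp : MeasurableSet {ω | p ω}) (hq : MeasurableSet {ω | q ω}) :
    MeasurableSet {ω | p ω → q ω} := by
  have : {ω | p ω → q ω} = {ω | p ω}ᶜ ∪ {ω | q ω} := by
    ext ω
    simp only [Set.mem_ofPred_eq, Set.mem_union, Set.mem_compl_iff]
    tauto
  rw [this]
  exact hp.compl.union hq

end mset

section own

/-- The own test of `e`: its value beats its sample, a tie being decided by the bit of `e`. -/
def own (b : E → Bool) (e : E) (s v : ℝ≥0) : Prop := s < v ∨ (s = v ∧ b e = true)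

theorem own_le {b : E → Bool} {e : E} {s v : ℝ≥0} (h : own b e s v) : s ≤ v := by
  rcases h with h | h
  · exact h.le
  · exact h.1.le

theorem own_flip_not {b : E → Bool} {e : E} {s v : ℝ≥0} (h : own b e s v) :
    ¬ own (flipC e b) e v s := by
  rw [own, flipC_self]
  rintro (h' | ⟨h1, h2⟩)
  · exact absurd h' (not_lt.2 (own_le h))
  · rcases h with h | ⟨_, h3⟩
    · exact absurd h1 (ne_of_gt h)
    · simp [h3] at h2

theorem own_or_flip (b : E → Bool) (e : E) (s v : ℝ≥0) : own b e s v ∨ own (flipC e b) e v s := by
  rcases lt_trichotomy s v with h | h | h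
  · exact Or.inl (Or.inl h)
  · cases hb : b e
    · right
      right
      exact ⟨h.symm, by simp [flipC_self, hb]⟩
    · left
      right
      exact ⟨h, hb⟩
  · exact Or.inr (Or.inl h)

theorem own_congr {b b' : E → Bool} {e : E} (h : b' e = b e) {s v : ℝ≥0} :
    own b' e s v ↔ own b e s v := by
  simp [own, h]

end own

variable [Fintype E] (N : Finset E)

/-- The one-winner test: the value beats its own sample (with tie bit) and all other samples. -/
def tst (s : E → ℝ≥0) (b : E → Bool) (e : E) (v : ℝ≥0) : Prop :=
  own b e (s e) v ∧ ∀ g, g ∈ N → g ≠ e → key (s g) g < key v e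

/-- `e` is the top element of `N` for the numbers `x`. -/
def topS (x : E → ℝ≥0) (e : E) : Prop := ∀ f, f ∈ N → f ≠ e → key (x f) f < key (x e) e

/-- `e` passes. -/
def Pp (ω : Outcome E) (b : E → Bool) (e : E) : Prop := tst N (sam ω) b e (val ω e)

/-- `e` passes and has the top value among the elements that pass. -/
def IsTopPass (ω : Outcome E) (b : E → Bool) (e : E) : Prop :=
  Pp N ω b e ∧ ∀ f, f ∈ N → f ≠ e → Pp N ω b f → key (val ω f) f < key (val ω e) e

/-- `t` is the only element that passes. -/
def UP (ω : Outcome E) (b : E → Bool) (t : E) : Prop :=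
  Pp N ω b t ∧ ∀ g, g ∈ N → g ≠ t → ¬ Pp N ω b g

/-- `f` has the second value among the elements that pass. -/
def IsSecond (ω : Outcome E) (b : E → Bool) (f : E) : Prop :=
  Pp N ω b f ∧ ∃ t, t ∈ N ∧ t ≠ f ∧ Pp N ω b t ∧ key (val ω f) f < key (val ω t) t ∧
    ∀ g, g ∈ N → g ≠ t → g ≠ f → Pp N ω b g → key (val ω g) g < key (val ω f) f

/-- The top value among the elements that pass. -/
noncomputable def Xt (ω : Outcome E) (b : E → Bool) : ℝ≥0 :=
  ∑ e ∈ N, if IsTopPass N ω b e then val ω e else 0

/-- The value of the unique element that passes, if there is exactly one. -/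
noncomputable def U1 (ω : Outcome E) (b : E → Bool) : ℝ≥0 :=
  ∑ t ∈ N, if UP N ω b t then val ω t else 0

section meas

theorem mset_key (a c : E → Outcome E → ℝ≥0) (ha : ∀ e, Measurable (a e)) (hc : ∀ e, Measurable (c e))
    (e f : E) : MeasurableSet {ω | key (a e ω) e < key (c f ω) f} :=
  measurableSet_key_lt (ha e) (hc f) e f

theorem mset_Pp (b : E → Bool) (e : E) : MeasurableSet {ω : Outcome E | Pp N ω b e} := by
  unfold Pp tst own
  refine mset_and (mset_or ?_ (mset_and ?_ ?_)) ?_
  · exact measurableSet_lt (measurable_sam e) (measurable_val e)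
  · exact measurableSet_eq_fun (measurable_sam e) (measurable_val e)
  · exact MeasurableSet.const _
  · refine mset_forall fun g => mset_cimp _ (mset_cimp _ ?_)
    exact measurableSet_key_lt (measurable_sam g) (measurable_val e) g e

theorem mset_IsTopPass (b : E → Bool) (e : E) :
    MeasurableSet {ω : Outcome E | IsTopPass N ω b e} := by
  unfold IsTopPass
  refine mset_and (mset_Pp N b e) (mset_forall fun f => mset_cimp _ (mset_cimp _ ?_))
  exact mset_imp (mset_Pp N b f) (measurableSet_key_lt (measurable_val f) (measurable_val e) f e)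

theorem mset_UP (b : E → Bool) (t : E) : MeasurableSet {ω : Outcome E | UP N ω b t} := by
  unfold UP
  refine mset_and (mset_Pp N b t) (mset_forall fun g => mset_cimp _ (mset_cimp _ ?_))
  exact mset_not (mset_Pp N b g)

theorem mset_IsSecond (b : E → Bool) (f : E) : MeasurableSet {ω : Outcome E | IsSecond N ω b f} := by
  unfold IsSecond
  refine mset_and (mset_Pp N b f) (mset_exists fun t => mset_cand _ (mset_cand _ ?_))
  refine mset_and (mset_Pp N b t) (mset_and ?_ ?_)
  · exact measurableSet_key_lt (measurable_val f) (measurable_val t) f t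
  · refine mset_forall fun g => mset_cimp _ (mset_cimp _ (mset_cimp _ ?_))
    exact mset_imp (mset_Pp N b g) (measurableSet_key_lt (measurable_val g) (measurable_val f) g f)

theorem mset_topS {x : Outcome E → E → ℝ≥0} (hx : ∀ g, Measurable fun ω => x ω g) (e : E) :
    MeasurableSet {ω : Outcome E | topS N (x ω) e} := by
  unfold topS
  refine mset_forall fun f => mset_cimp _ (mset_cimp _ ?_)
  exact measurableSet_key_lt (hx f) (hx e) f e

theorem measurable_Xt (b : E → Bool) : Measurable fun ω : Outcome E => Xt N ω b := by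
  unfold Xt
  exact Finset.measurable_sum _ fun e _ =>
    Measurable.ite (mset_IsTopPass N b e) (measurable_val e) measurable_const

theorem measurable_U1 (b : E → Bool) : Measurable fun ω : Outcome E => U1 N ω b := by
  unfold U1
  exact Finset.measurable_sum _ fun e _ =>
    Measurable.ite (mset_UP N b e) (measurable_val e) measurable_const

end meas

/-- A sum of `if` terms with at most one true condition, all values bounded by `c`. -/
theorem sum_ite_le {F : Type} (S : Finset F) (Q : F → Prop) (hQ : ∀ e ∈ S, ∀ f ∈ S, Q e → Q f → e = f)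
    (v : F → ℝ≥0) (c : ℝ≥0) (h : ∀ e ∈ S, Q e → v e ≤ c) :
    ∑ e ∈ S, (if Q e then v e else 0) ≤ c := by
  by_cases hex : ∃ e ∈ S, Q e
  · obtain ⟨e, he, hq⟩ := hex
    rw [Finset.sum_eq_single_of_mem e he]
    · rw [if_pos hq]
      exact h e he hq
    · intro f hf hne
      rw [if_neg fun hc => hne (hQ f hf e he hc hq)]
  · push Not at hex
    rw [Finset.sum_eq_zero fun e he => if_neg (hex e he)]
    exact zero_le

theorem topS_unique (x : E → ℝ≥0) (e f : E) (he : e ∈ N) (hf : f ∈ N) (h1 : topS N x e)
    (h2 : topS N x f) : e = f := by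
  by_contra hne
  exact lt_asymm (h1 f hf (Ne.symm hne)) (h2 e he hne)

/-- Pointwise: what the test fails on is at most the top sample. -/
theorem le_sup_of_fail (s : E → ℝ≥0) (b : E → Bool) (e : E) (he : e ∈ N) (v : ℝ≥0)
    (h : ¬ tst N s b e v) : v ≤ N.sup s := by
  unfold tst at h
  rw [not_and_or] at h
  rcases h with h | h
  · have : v ≤ s e := by
      by_contra hc
      exact h (Or.inl (not_le.1 hc))
    exact this.trans (le_sup he)
  · push Not at h
    obtain ⟨g, hg, _, hk⟩ := h
    exact (le_of_key_le hk).trans (le_sup hg)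

/-- The elements that pass, in expectation, are at most the top sample. -/
theorem topPass_le (ω : Outcome E) (b : E → Bool) (t : E) (ht : t ∈ N) (h : IsTopPass N ω b t) :
    Xt N ω b ≤ val ω t := by
  refine sum_ite_le N _ (fun e he f hf h1 h2 => ?_) _ _ (fun e he he' => ?_)
  · by_contra hne
    exact lt_asymm (h1.2 f hf (Ne.symm hne) h2.1) (h2.2 e he hne h1.1)
  · by_cases het : e = t
    · rw [het]
    · by_contra hlt
      have h3 := h.2 e he het he'.1
      have h4 := he'.2 t ht (Ne.symm het) h.1
      exact lt_asymm h3 h4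

/-- Pointwise: the top value among those that pass is the unique pass value or a second value. -/
theorem Xt_le (ω : Outcome E) (b : E → Bool) :
    Xt N ω b ≤ U1 N ω b + ∑ f ∈ N, if IsSecond N ω b f then Xt N ω b else 0 := by
  by_cases hne : (N.filter fun e => Pp N ω b e).Nonempty
  · obtain ⟨t, ht, hmax⟩ := exists_max_image _ (fun e => key (val ω e) e) hne
    obtain ⟨htN, htP⟩ := mem_filter.1 ht
    have htop : IsTopPass N ω b t := by
      refine ⟨htP, fun f hf hft hfP => ?_⟩
      exact lt_of_le_of_ne (hmax f (mem_filter.2 ⟨hf, hfP⟩)) (key_ne hft)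
    have hX := topPass_le N ω b t htN htop
    by_cases hother : ((N.filter fun e => Pp N ω b e).erase t).Nonempty
    · obtain ⟨f, hf, hmaxf⟩ := exists_max_image _ (fun e => key (val ω e) e) hother
      obtain ⟨hft, hfm⟩ := mem_erase.1 hf
      obtain ⟨hfN, hfP⟩ := mem_filter.1 hfm
      have hsec : IsSecond N ω b f := by
        refine ⟨hfP, t, htN, Ne.symm hft, htP, ?_, ?_⟩
        · exact lt_of_le_of_ne (hmax f hfm) (key_ne hft)
        · intro g hg hgt hgf hgP
          exact lt_of_le_of_ne (hmaxf g (mem_erase.2 ⟨hgt, mem_filter.2 ⟨hg, hgP⟩⟩)) (key_ne hgf)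
      calc Xt N ω b = if IsSecond N ω b f then Xt N ω b else 0 := (if_pos hsec).symm
        _ ≤ ∑ f ∈ N, if IsSecond N ω b f then Xt N ω b else 0 :=
            Finset.single_le_sum (f := fun f => if IsSecond N ω b f then Xt N ω b else 0)
              (fun _ _ => zero_le) hfN
        _ ≤ _ := le_add_self
    · rw [not_nonempty_iff_eq_empty] at hother
      have hup : UP N ω b t := by
        refine ⟨htP, fun g hg hgt hgP => ?_⟩
        have : g ∈ (N.filter fun e => Pp N ω b e).erase t :=
          mem_erase.2 ⟨hgt, mem_filter.2 ⟨hg, hgP⟩⟩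
        rw [hother] at this
        simp at this
      calc Xt N ω b ≤ val ω t := hX
        _ = if UP N ω b t then val ω t else 0 := (if_pos hup).symm
        _ ≤ U1 N ω b := Finset.single_le_sum (f := fun t => if UP N ω b t then val ω t else 0)
              (fun _ _ => zero_le) htN
        _ ≤ _ := le_self_add
  · rw [not_nonempty_iff_eq_empty] at hne
    have : Xt N ω b = 0 := by
      unfold Xt
      refine Finset.sum_eq_zero fun e he => if_neg fun hc => ?_
      have : e ∈ N.filter fun e => Pp N ω b e := mem_filter.2 ⟨he, hc.1⟩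
      rw [hne] at this
      simp at this
    rw [this]
    exact zero_le

/-- The exchange at a second element: it becomes top sample, the top element the unique winner. -/
theorem second_flip (ω : Outcome E) (b : E → Bool) (f : E) (hf : f ∈ N) (h : IsSecond N ω b f) :
    topS N (sam (flip f ω)) f ∧ Xt N ω b ≤ U1 N (flip f ω) (flipC f b) := by
  obtain ⟨hfP, t, htN, htf, htP, hft, hrest⟩ := h
  constructor
  · intro g hg hgf
    rw [sam_flip_self, sam_flip_ne hgf]
    exact hfP.2 g hg hgf
  · have htop : IsTopPass N ω b t := by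
      refine ⟨htP, fun g hg hgt hgP => ?_⟩
      by_cases hgf : g = f
      · rw [hgf]
        exact hft
      · exact (hrest g hg hgt hgf hgP).trans hft
    have hup : UP N (flip f ω) (flipC f b) t := by
      refine ⟨⟨?_, fun g hg hgt => ?_⟩, fun g hg hgt hgP => ?_⟩
      · rw [sam_flip_ne htf, val_flip_ne htf, own_congr (flipC_ne htf b)]
        exact htP.1
      · rw [val_flip_ne htf]
        by_cases hgf : g = f
        · subst hgf
          rw [sam_flip_self]
          exact hft
        · rw [sam_flip_ne hgf]
          exact htP.2 g hg hgt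
      · by_cases hgf : g = f
        · subst hgf
          have := hgP.1
          rw [sam_flip_self, val_flip_self] at this
          exact own_flip_not hfP.1 this
        · have h1 : key (val ω f) f < key (val ω g) g := by
            have := hgP.2 f hf (Ne.symm hgf)
            rwa [sam_flip_self, val_flip_ne hgf] at this
          have hP : Pp N ω b g := by
            refine ⟨?_, fun h' hh hhg => ?_⟩
            · have := hgP.1
              rwa [sam_flip_ne hgf, val_flip_ne hgf, own_congr (flipC_ne hgf b)] at this
            · by_cases hhf : h' = f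
              · subst hhf
                exact lt_of_le_of_lt (key_le_same _ (own_le hfP.1)) h1
              · have := hgP.2 h' hh hhg
                rwa [sam_flip_ne hhf, val_flip_ne hgf] at this
          exact lt_asymm (hrest g hg hgt hgf hP) h1
    calc Xt N ω b ≤ val ω t := topPass_le N ω b t htN htop
      _ = val (flip f ω) t := (val_flip_ne htf ω).symm
      _ = if UP N (flip f ω) (flipC f b) t then val (flip f ω) t else 0 := (if_pos hup).symm
      _ ≤ U1 N (flip f ω) (flipC f b) :=
          Finset.single_le_sum (f := fun t => if UP N (flip f ω) (flipC f b) t then val (flip f ω) t else 0)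
            (fun _ _ => zero_le) htN

end Vale.Agent.Lib.P331
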