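import Vale.Agent.Lib.P331.Level

/-!
# P331: the top-`j` test, for matroids in which all sets of at most `k` nonloops are independent
-/

open MeasureTheory Finset
open scoped NNReal ENNReal Classical

namespace Vale.Agent.Lib.P331

variable {E : Type} [Fintype E]

section order

variable (N : Finset E) (j : ℕ)

/-- The number of elements of `N` other than `e` whose number `s` is above the number `v` of `e`. -/
noncomputable def cnt (s : E → ℝ≥0) (e : E) (v : ℝ≥0) : ℕ :=
  (N.filter fun g => g ≠ e ∧ key v e < key (s g) g).card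

/-- The test: fewer than `j` samples of other elements lie above the value. -/
def Pass (s : E → ℝ≥0) (e : E) (v : ℝ≥0) : Prop := cnt N s e v < j

/-- `e` is among the top `j` elements for the numbers `x`. -/
def InTop (x : E → ℝ≥0) (e : E) : Prop := Pass N j x e (x e)

/-- The top `j` elements of `N` for the numbers `x`. -/
noncomputable def topW (x : E → ℝ≥0) : Finset E := N.filter (InTop N j x)

/-- The `j`-th largest number among the `s e`, `e ∈ N`, or `0` if there are fewer than `j` elements. -/
noncomputable def topT (s : E → ℝ≥0) : ℝ≥0 :=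
  N.sup fun e => if j - 1 ≤ cnt N s e (s e) then s e else 0

theorem cnt_congr {s s' : E → ℝ≥0} {e : E} {v : ℝ≥0} (h : ∀ g, g ≠ e → s g = s' g) :
    cnt N s e v = cnt N s' e v := by
  unfold cnt
  congr 1
  refine Finset.filter_congr fun g _ => ?_
  constructor
  · rintro ⟨h1, h2⟩
    exact ⟨h1, by rwa [← h g h1]⟩
  · rintro ⟨h1, h2⟩
    exact ⟨h1, by rwa [h g h1]⟩

theorem pass_iff_flip (ω : Outcome E) (f : E) :
    Pass N j (sam ω) f (val ω f) ↔ InTop N j (sam (flip f ω)) f := by
  unfold InTop Pass
  rw [sam_flip_self, cnt_congr N (s := sam (flip f ω)) (s' := sam ω) fun g hg => sam_flip_ne hg ω]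

theorem card_topW_le (x : E → ℝ≥0) : (topW N j x).card ≤ j := by
  by_contra h
  push Not at h
  have hne : (topW N j x).Nonempty := card_pos.1 (by omega)
  obtain ⟨m, hm, hmin⟩ := exists_min_image (topW N j x) (fun e => key (x e) e) hne
  have hmTop : cnt N x m (x m) < j := (mem_filter.1 hm).2
  have hsub : (topW N j x).erase m ⊆ N.filter fun g => g ≠ m ∧ key (x m) m < key (x g) g := by
    intro g hg
    rw [mem_erase] at hg
    exact mem_filter.2 ⟨(mem_filter.1 hg.2).1, hg.1,
      lt_of_le_of_ne (hmin g hg.2) (key_ne (Ne.symm hg.1))⟩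
  have := card_le_card hsub
  rw [card_erase_of_mem hm] at this
  unfold cnt at hmTop
  omega

theorem topW_card (x : E → ℝ≥0) : j ≤ (topW N j x).card ∨ N.card ≤ (topW N j x).card := by
  by_contra h
  push Not at h
  obtain ⟨h1, h2⟩ := h
  have hne : (N \ topW N j x).Nonempty := by
    by_contra hem
    rw [not_nonempty_iff_eq_empty, sdiff_eq_empty_iff_subset] at hem
    exact absurd (card_le_card hem) (not_le.2 h2)
  obtain ⟨a, ha, hmax⟩ := exists_max_image (N \ topW N j x) (fun e => key (x e) e) hne
  rw [mem_sdiff] at ha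
  apply ha.2
  refine mem_filter.2 ⟨ha.1, ?_⟩
  refine lt_of_le_of_lt (card_le_card ?_) h1
  intro g hg
  obtain ⟨hgN, _, hlt⟩ := mem_filter.1 hg
  by_contra hgW
  exact absurd hlt (not_lt.2 (hmax g (mem_sdiff.2 ⟨hgN, hgW⟩)))

theorem sum_le_top (x : E → ℝ≥0) (I : Finset E) (hIN : I ⊆ N) (hI : I.card ≤ j) :
    ∑ e ∈ I, x e ≤ ∑ e ∈ topW N j x, x e := by
  set W := topW N j x with hW
  have hcard : I.card ≤ W.card := by
    have h0 := topW_card N j x
    rw [← hW] at h0
    rcases h0 with h | h
    · omega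
    · exact (card_le_card hIN).trans h
  have hc2 : (I \ W).card ≤ (W \ I).card := by
    have h1 := card_sdiff_add_card_inter I W
    have h2 := card_sdiff_add_card_inter W I
    rw [inter_comm] at h2
    omega
  have hle : ∀ a ∈ I \ W, ∀ c ∈ W \ I, x a ≤ x c := by
    intro a ha c hc
    rw [mem_sdiff] at ha hc
    by_contra hlt
    push Not at hlt
    have hcW : cnt N x c (x c) < j := (mem_filter.1 hc.1).2
    have haW : ¬ (cnt N x a (x a) < j) := fun h => ha.2 (mem_filter.2 ⟨hIN ha.1, h⟩)
    apply haW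
    refine lt_of_le_of_lt (card_le_card ?_) hcW
    intro g hg
    obtain ⟨hgN, hga, hkey⟩ := mem_filter.1 hg
    have hca : key (x c) c < key (x a) a := key_lt_of_lt _ _ hlt
    have hcg := hca.trans hkey
    refine mem_filter.2 ⟨hgN, ?_, hcg⟩
    rintro rfl
    exact lt_irrefl _ hcg
  have h3 : ∑ e ∈ I \ W, x e ≤ ∑ e ∈ W \ I, x e := by
    calc ∑ e ∈ I \ W, x e ≤ (I \ W).card • (I \ W).sup x :=
          sum_le_card_nsmul _ _ _ fun e he => le_sup he
      _ ≤ (W \ I).card • (I \ W).sup x := nsmul_le_nsmul_left zero_le hc2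
      _ ≤ _ := card_nsmul_le_sum _ _ _ fun c hc => Finset.sup_le fun a ha => hle a ha c hc
  rw [← sum_inter_add_sum_sdiff I W, ← sum_inter_add_sum_sdiff W I, inter_comm]
  gcongr

theorem le_topT_of_fail (hj : 1 ≤ j) (s : E → ℝ≥0) (e : E) (v : ℝ≥0) (hfail : ¬ Pass N j s e v) :
    v ≤ topT N j s := by
  unfold Pass at hfail
  push Not at hfail
  unfold cnt at hfail
  set A := N.filter fun g => g ≠ e ∧ key v e < key (s g) g with hA
  have hne : A.Nonempty := card_pos.1 (by omega)
  obtain ⟨m, hm, hmin⟩ := exists_min_image A (fun g => key (s g) g) hne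
  have hmN := (mem_filter.1 hm).1
  have hkey := (mem_filter.1 hm).2.2
  have hcnt : j - 1 ≤ cnt N s m (s m) := by
    have hsub : A.erase m ⊆ N.filter fun g => g ≠ m ∧ key (s m) m < key (s g) g := by
      intro g hg
      rw [mem_erase] at hg
      exact mem_filter.2 ⟨(mem_filter.1 hg.2).1, hg.1,
        lt_of_le_of_ne (hmin g hg.2) (key_ne (Ne.symm hg.1))⟩
    have := card_le_card hsub
    rw [card_erase_of_mem hm] at this
    unfold cnt
    omega
  calc v ≤ s m := le_of_key_lt hkey
    _ = if j - 1 ≤ cnt N s m (s m) then s m else 0 := (if_pos hcnt).symm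
    _ ≤ topT N j s := le_sup (f := fun e => if j - 1 ≤ cnt N s e (s e) then s e else 0) hmN

theorem mul_topT_le (s : E → ℝ≥0) : (j : ℝ≥0) * topT N j s ≤ ∑ e ∈ topW N j s, s e := by
  by_cases hT : topT N j s = 0
  · simp [hT]
  have hNne : N.Nonempty := by
    by_contra h
    rw [not_nonempty_iff_eq_empty] at h
    subst h
    simp [topT] at hT
  obtain ⟨e₀, he₀, hsup⟩ := exists_mem_eq_sup N hNne
    (fun e => if j - 1 ≤ cnt N s e (s e) then s e else 0)
  have hsup' : topT N j s = if j - 1 ≤ cnt N s e₀ (s e₀) then s e₀ else 0 := hsup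
  have hite : j - 1 ≤ cnt N s e₀ (s e₀) := by
    by_contra h
    rw [if_neg h] at hsup'
    exact hT hsup'
  rw [if_pos hite] at hsup'
  set U := insert e₀ (N.filter fun g => g ≠ e₀ ∧ key (s e₀) e₀ < key (s g) g) with hU
  have hUcard : j ≤ U.card := by
    rw [hU, card_insert_of_notMem (by simp)]
    unfold cnt at hite
    omega
  have hUN : U ⊆ N := by
    intro g hg
    rcases mem_insert.1 hg with rfl | hg
    · exact he₀
    · exact (mem_filter.1 hg).1
  have hNj : j ≤ N.card := hUcard.trans (card_le_card hUN)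
  have hW : j ≤ (topW N j s).card := by
    rcases topW_card N j s with h | h
    · exact h
    · exact hNj.trans h
  have hle : ∀ e ∈ topW N j s, topT N j s ≤ s e := by
    intro e he
    by_contra hlt
    push Not at hlt
    rw [hsup'] at hlt
    have hcnt : cnt N s e (s e) < j := (mem_filter.1 he).2
    have hsubU : U ⊆ N.filter fun g => g ≠ e ∧ key (s e) e < key (s g) g := by
      intro g hg
      have hke : key (s e) e < key (s e₀) e₀ := key_lt_of_lt _ _ hlt
      rcases mem_insert.1 hg with rfl | hg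
      · refine mem_filter.2 ⟨he₀, ?_, hke⟩
        rintro rfl
        exact lt_irrefl _ hke
      · obtain ⟨hgN, _, hkg⟩ := mem_filter.1 hg
        have := hke.trans hkg
        refine mem_filter.2 ⟨hgN, ?_, this⟩
        rintro rfl
        exact lt_irrefl _ this
    have := card_le_card hsubU
    unfold cnt at hcnt
    omega
  calc (j : ℝ≥0) * topT N j s ≤ ((topW N j s).card : ℝ≥0) * topT N j s := by
        gcongr
    _ = (topW N j s).card • topT N j s := by rw [nsmul_eq_mul]
    _ ≤ _ := card_nsmul_le_sum _ _ _ hle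

theorem pass_of_inTop {s x : E → ℝ≥0} (hsx : ∀ g, s g ≤ x g) {e : E} {v : ℝ≥0} (hv : x e = v)
    (h : InTop N j x e) : Pass N j s e v := by
  unfold InTop Pass at h
  unfold Pass
  refine lt_of_le_of_lt (card_le_card ?_) h
  intro g hg
  obtain ⟨hgN, hge, hk⟩ := mem_filter.1 hg
  rw [hv]
  exact mem_filter.2 ⟨hgN, hge, lt_of_lt_of_le hk (key_le_same g (hsx g))⟩

section meas

variable {Ω : Type} [MeasurableSpace Ω]

theorem measurable_cnt {s : Ω → E → ℝ≥0} {v : Ω → ℝ≥0} (hs : ∀ g, Measurable fun ω => s ω g)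
    (hv : Measurable v) (e : E) : Measurable fun ω => cnt N (s ω) e (v ω) := by
  unfold cnt
  convert measurable_card_filter N (fun g ω => g ≠ e ∧ key (v ω) e < key (s ω g) g) fun g => ?_
  have : {ω | g ≠ e ∧ key (v ω) e < key (s ω g) g} =
      {_ω | g ≠ e} ∩ {ω | key (v ω) e < key (s ω g) g} := by
    ext ω
    simp
  rw [this]
  exact (MeasurableSet.const _).inter (measurableSet_key_lt hv (hs g) e g)

theorem measurableSet_pass {s : Ω → E → ℝ≥0} {v : Ω → ℝ≥0} (hs : ∀ g, Measurable fun ω => s ω g)
    (hv : Measurable v) (e : E) : MeasurableSet {ω | Pass N j (s ω) e (v ω)} :=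
  measurableSet_lt (measurable_cnt N hs hv e) measurable_const

theorem measurable_topT {s : Ω → E → ℝ≥0} (hs : ∀ g, Measurable fun ω => s ω g) :
    Measurable fun ω => topT N j (s ω) := by
  unfold topT
  refine measurable_finset_sup _ _ fun e => ?_
  refine Measurable.ite ?_ (hs e) measurable_const
  exact measurableSet_le measurable_const (measurable_cnt N hs (hs e) e)

end meas

end order

end Vale.Agent.Lib.P331
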