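import Vale.Agent.Lib.P331.Top

/-!
# P331: the integral inequalities for the top-`j` test
-/

open MeasureTheory Finset
open scoped NNReal ENNReal Classical

namespace Vale.Agent.Lib.P331

variable {E : Type} [Fintype E] (N : Finset E) (j k : ℕ)

/-- The value of `e` when `e` is in the top `j` of the maxima and its value is its maximum. -/
noncomputable def Fe (e : E) (ω : Outcome E) : ℝ≥0 :=
  if InTop N j (xm ω) e ∧ sam ω e ≤ val ω e then val ω e else 0

/-- The number of elements that pass. -/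
noncomputable def Pc (ω : Outcome E) : ℕ := (N.filter fun f => Pass N j (sam ω) f (val ω f)).card

/-- `Fe` on the event that at most `k` elements pass. -/
noncomputable def Gm (e : E) (ω : Outcome E) : ℝ≥0 := if Pc N j ω ≤ k then Fe N j e ω else 0

theorem Fe_flip_ne {e f : E} (h : f ≠ e) (ω : Outcome E) : Fe N j e (flip f ω) = Fe N j e ω := by
  unfold Fe
  rw [xm_flip, sam_flip_ne h.symm ω, val_flip_ne h.symm ω]

theorem measurableSet_inTop_xm (e : E) : MeasurableSet {ω : Outcome E | InTop N j (xm ω) e} :=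
  measurableSet_pass N j (s := fun ω => xm ω) measurable_xm (measurable_xm e) e

theorem measurableSet_inTop_sam (e : E) : MeasurableSet {ω : Outcome E | InTop N j (sam ω) e} :=
  measurableSet_pass N j (s := fun ω => sam ω) measurable_sam (measurable_sam e) e

theorem measurableSet_pass_val (e : E) :
    MeasurableSet {ω : Outcome E | Pass N j (sam ω) e (val ω e)} :=
  measurableSet_pass N j (s := fun ω => sam ω) measurable_sam (measurable_val e) e

theorem measurable_Fe (e : E) : Measurable fun ω : Outcome E => Fe N j e ω := by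
  unfold Fe
  refine Measurable.ite ?_ (measurable_val e) measurable_const
  have : {ω : Outcome E | InTop N j (xm ω) e ∧ sam ω e ≤ val ω e} =
      {ω | InTop N j (xm ω) e} ∩ {ω | sam ω e ≤ val ω e} := by
    ext ω
    simp
  rw [this]
  exact (measurableSet_inTop_xm N j e).inter (measurableSet_le (measurable_sam e) (measurable_val e))

theorem measurable_Pc : Measurable fun ω : Outcome E => Pc N j ω := by
  unfold Pc
  convert measurable_card_filter N (fun f (ω : Outcome E) => Pass N j (sam ω) f (val ω f))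
    (measurableSet_pass_val N j)

theorem measurable_Gm (e : E) : Measurable fun ω : Outcome E => Gm N j k e ω := by
  unfold Gm
  exact Measurable.ite (measurableSet_le (measurable_Pc N j) measurable_const)
    (measurable_Fe N j e) measurable_const

variable (D : E → Measure ℝ≥0) [∀ e, IsProbabilityMeasure (D e)]

theorem lintegral_Fe_pass {e f : E} (h : f ≠ e) :
    ∫⁻ ω, (Fe N j e ω : ℝ≥0∞) * (if Pass N j (sam ω) f (val ω f) then 1 else 0) ∂(law D) =
      ∫⁻ ω, (Fe N j e ω : ℝ≥0∞) * (if InTop N j (sam ω) f then 1 else 0) ∂(law D) := by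
  rw [← lintegral_flip D f (fun ω => (Fe N j e ω : ℝ≥0∞) * if InTop N j (sam ω) f then 1 else 0)]
  refine lintegral_congr fun ω => ?_
  rw [Fe_flip_ne N j h]
  by_cases hp : Pass N j (sam ω) f (val ω f)
  · rw [if_pos hp, if_pos ((pass_iff_flip N j ω f).1 hp)]
  · rw [if_neg hp, if_neg (fun hc => hp ((pass_iff_flip N j ω f).2 hc))]

theorem measurable_ind {Ω : Type} [MeasurableSpace Ω] {p : Ω → Prop} (hp : MeasurableSet {ω | p ω}) :
    Measurable fun ω => (if p ω then 1 else 0 : ℝ≥0∞) :=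
  Measurable.ite hp measurable_const measurable_const

/-- Markov: the event that more than `k` elements pass is small, given `Fe`. -/
theorem markov_Fe (e : E) :
    (k : ℝ≥0∞) * ∫⁻ ω, (if k < Pc N j ω then (Fe N j e ω : ℝ≥0∞) else 0) ∂(law D) ≤
      (1 + (j : ℝ≥0∞)) * ∫⁻ ω, (Fe N j e ω : ℝ≥0∞) ∂(law D) := by
  have hF : Measurable fun ω : Outcome E => (Fe N j e ω : ℝ≥0∞) :=
    (measurable_Fe N j e).coe_nnreal_ennreal
  have hmeas1 : ∀ f ∈ N.erase e, Measurable fun ω : Outcome E =>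
      (Fe N j e ω : ℝ≥0∞) * (if Pass N j (sam ω) f (val ω f) then 1 else 0) := fun f _ =>
    hF.mul (measurable_ind (measurableSet_pass_val N j f))
  have hmeas2 : ∀ f ∈ N.erase e, Measurable fun ω : Outcome E =>
      (if InTop N j (sam ω) f then (1 : ℝ≥0∞) else 0) := fun f _ =>
    measurable_ind (measurableSet_inTop_sam N j f)
  have hpt : ∀ ω, (k : ℝ≥0∞) * (if k < Pc N j ω then (Fe N j e ω : ℝ≥0∞) else 0) ≤
      (Fe N j e ω : ℝ≥0∞) + ∑ f ∈ N.erase e,
        (Fe N j e ω : ℝ≥0∞) * (if Pass N j (sam ω) f (val ω f) then 1 else 0) := by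
    intro ω
    by_cases hc : k < Pc N j ω
    · rw [if_pos hc, ← Finset.mul_sum]
      have h1 : Pc N j ω ≤ 1 + ∑ f ∈ N.erase e, (if Pass N j (sam ω) f (val ω f) then 1 else 0) := by
        rw [← Finset.card_filter]
        unfold Pc
        have : (N.filter fun f => Pass N j (sam ω) f (val ω f)) ⊆
            insert e ((N.erase e).filter fun f => Pass N j (sam ω) f (val ω f)) := by
          intro g hg
          by_cases hge : g = e
          · simp [hge]
          · exact mem_insert_of_mem (mem_filter.2 ⟨mem_erase.2 ⟨hge, (mem_filter.1 hg).1⟩,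
              (mem_filter.1 hg).2⟩)
        have h2 := (card_le_card this).trans (card_insert_le _ _)
        omega
      have h2 : (k : ℝ≥0∞) ≤ 1 + ∑ f ∈ N.erase e, (if Pass N j (sam ω) f (val ω f) then 1 else 0) := by
        have : k ≤ 1 + ∑ f ∈ N.erase e, (if Pass N j (sam ω) f (val ω f) then 1 else 0) :=
          hc.le.trans h1
        exact_mod_cast this
      calc (k : ℝ≥0∞) * (Fe N j e ω : ℝ≥0∞) ≤
          (1 + ∑ f ∈ N.erase e, (if Pass N j (sam ω) f (val ω f) then 1 else 0)) * (Fe N j e ω : ℝ≥0∞) := by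
            gcongr
        _ = _ := by ring
    · rw [if_neg hc, mul_zero]
      exact zero_le
  calc (k : ℝ≥0∞) * ∫⁻ ω, (if k < Pc N j ω then (Fe N j e ω : ℝ≥0∞) else 0) ∂(law D)
      = ∫⁻ ω, (k : ℝ≥0∞) * (if k < Pc N j ω then (Fe N j e ω : ℝ≥0∞) else 0) ∂(law D) := by
        rw [lintegral_const_mul' _ _ (by simp)]
    _ ≤ ∫⁻ ω, ((Fe N j e ω : ℝ≥0∞) + ∑ f ∈ N.erase e,
        (Fe N j e ω : ℝ≥0∞) * (if Pass N j (sam ω) f (val ω f) then 1 else 0)) ∂(law D) :=
        lintegral_mono hpt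
    _ = ∫⁻ ω, (Fe N j e ω : ℝ≥0∞) ∂(law D) + ∑ f ∈ N.erase e, ∫⁻ ω,
        (Fe N j e ω : ℝ≥0∞) * (if InTop N j (sam ω) f then 1 else 0) ∂(law D) := by
        rw [lintegral_add_left hF, lintegral_finsetSum _ hmeas1]
        congr 1
        refine Finset.sum_congr rfl fun f hf => ?_
        exact lintegral_Fe_pass N j D (mem_erase.1 hf).1
    _ = ∫⁻ ω, (Fe N j e ω : ℝ≥0∞) ∂(law D) + ∫⁻ ω,
        (Fe N j e ω : ℝ≥0∞) * ∑ f ∈ N.erase e, (if InTop N j (sam ω) f then 1 else 0) ∂(law D) := by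
        congr 1
        have hm3 : ∀ f ∈ N.erase e, Measurable fun ω : Outcome E =>
            (Fe N j e ω : ℝ≥0∞) * (if InTop N j (sam ω) f then 1 else 0) := fun f hf =>
          hF.mul (hmeas2 f hf)
        rw [← lintegral_finsetSum _ hm3]
        refine lintegral_congr fun ω => ?_
        rw [Finset.mul_sum]
    _ ≤ ∫⁻ ω, (Fe N j e ω : ℝ≥0∞) ∂(law D) + ∫⁻ ω, (Fe N j e ω : ℝ≥0∞) * (j : ℝ≥0∞) ∂(law D) := by
        gcongr with ω
        have h1 : ∑ f ∈ N.erase e, (if InTop N j (sam ω) f then 1 else 0) ≤ j := by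
          rw [← Finset.card_filter]
          refine le_trans (card_le_card ?_) (card_topW_le N j (sam ω))
          intro g hg
          exact mem_filter.2 ⟨mem_of_mem_erase (mem_filter.1 hg).1, (mem_filter.1 hg).2⟩
        have h2 : ((∑ f ∈ N.erase e, (if InTop N j (sam ω) f then 1 else 0) : ℕ) : ℝ≥0∞) ≤ j := by
          exact_mod_cast h1
        refine le_trans (le_of_eq ?_) h2
        push_cast
        rfl
    _ = _ := by
        rw [lintegral_mul_const _ hF]
        ring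

/-- The event that at most `k` elements pass keeps half of the integral of `Fe`. -/
theorem Fe_le_two_Gm (hk : 2 * (j + 1) ≤ k) (e : E)
    (hfin : ∫⁻ ω, (Fe N j e ω : ℝ≥0∞) ∂(law D) ≠ ∞) :
    ∫⁻ ω, (Fe N j e ω : ℝ≥0∞) ∂(law D) ≤ 2 * ∫⁻ ω, (Gm N j k e ω : ℝ≥0∞) ∂(law D) := by
  set b := ∫⁻ ω, (Fe N j e ω : ℝ≥0∞) ∂(law D) with hb
  set a := ∫⁻ ω, (if k < Pc N j ω then (Fe N j e ω : ℝ≥0∞) else 0) ∂(law D) with ha
  set c := ∫⁻ ω, (Gm N j k e ω : ℝ≥0∞) ∂(law D) with hc
  have hmk : Measurable fun ω : Outcome E => (if k < Pc N j ω then (Fe N j e ω : ℝ≥0∞) else 0) :=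
    Measurable.ite (measurableSet_lt measurable_const (measurable_Pc N j))
      (measurable_Fe N j e).coe_nnreal_ennreal measurable_const
  have hsplit : b = a + c := by
    rw [hb, ha, hc, ← lintegral_add_left hmk]
    refine lintegral_congr fun ω => ?_
    unfold Gm
    by_cases h : k < Pc N j ω
    · rw [if_pos h, if_neg (not_le.2 h)]
      simp
    · rw [if_neg h, if_pos (not_lt.1 h)]
      simp
  have hmark := markov_Fe N j k D e
  rw [← ha, ← hb] at hmark
  have hane : a ≠ ∞ := by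
    intro h
    apply hfin
    rw [hsplit, h]
    simp
  have h2a : 2 * a ≤ b := by
    have hj0 : (1 + (j : ℝ≥0∞)) ≠ 0 := by simp
    have hjt : (1 + (j : ℝ≥0∞)) ≠ ∞ := by simp
    have h1 : (1 + (j : ℝ≥0∞)) * (2 * a) ≤ (1 + (j : ℝ≥0∞)) * b := by
      refine le_trans ?_ hmark
      have : ((1 + (j : ℝ≥0∞)) * 2) ≤ k := by
        have : (1 + j) * 2 ≤ k := by omega
        exact_mod_cast this
      calc (1 + (j : ℝ≥0∞)) * (2 * a) = ((1 + (j : ℝ≥0∞)) * 2) * a := by ring
        _ ≤ _ := by gcongr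
    exact (ENNReal.mul_le_mul_iff_right hj0 hjt).1 h1
  have hac : a ≤ c := by
    rw [hsplit, two_mul] at h2a
    exact (ENNReal.add_le_add_iff_left hane).1 h2a
  calc b = a + c := hsplit
    _ ≤ c + c := by gcongr
    _ = 2 * c := (two_mul c).symm

/-- The values of the elements that pass are, in expectation, at most the top samples. -/
theorem lintegral_pass_le :
    ∫⁻ ω, ((∑ e ∈ N, if Pass N j (sam ω) e (val ω e) then val ω e else 0 : ℝ≥0) : ℝ≥0∞) ∂(law D) ≤
      ∫⁻ ω, ((∑ e ∈ topW N j (sam ω), sam ω e : ℝ≥0) : ℝ≥0∞) ∂(law D) := by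
  have hm1 : ∀ e ∈ N, Measurable fun ω : Outcome E =>
      ((if Pass N j (sam ω) e (val ω e) then val ω e else 0 : ℝ≥0) : ℝ≥0∞) := fun e _ =>
    (Measurable.ite (measurableSet_pass_val N j e) (measurable_val e)
      measurable_const).coe_nnreal_ennreal
  have hm2 : ∀ e ∈ N, Measurable fun ω : Outcome E =>
      ((if InTop N j (sam ω) e then sam ω e else 0 : ℝ≥0) : ℝ≥0∞) := fun e _ =>
    (Measurable.ite (measurableSet_inTop_sam N j e) (measurable_sam e)
      measurable_const).coe_nnreal_ennreal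
  have h2 : ∀ ω : Outcome E, ((∑ e ∈ topW N j (sam ω), sam ω e : ℝ≥0) : ℝ≥0∞) =
      ∑ e ∈ N, ((if InTop N j (sam ω) e then sam ω e else 0 : ℝ≥0) : ℝ≥0∞) := by
    intro ω
    unfold topW
    rw [Finset.sum_filter]
    push_cast
    rfl
  have h1 : ∀ ω : Outcome E, ((∑ e ∈ N, if Pass N j (sam ω) e (val ω e) then val ω e else 0 : ℝ≥0) : ℝ≥0∞) =
      ∑ e ∈ N, ((if Pass N j (sam ω) e (val ω e) then val ω e else 0 : ℝ≥0) : ℝ≥0∞) := by
    intro ω
    push_cast
    rfl
  simp only [h1, h2]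
  rw [lintegral_finsetSum _ hm1, lintegral_finsetSum _ hm2]
  refine Finset.sum_le_sum fun e _ => ?_
  rw [← lintegral_flip D e (fun ω => ((if InTop N j (sam ω) e then sam ω e else 0 : ℝ≥0) : ℝ≥0∞))]
  refine le_of_eq (lintegral_congr fun ω => ?_)
  by_cases hp : Pass N j (sam ω) e (val ω e)
  · rw [if_pos hp, if_pos ((pass_iff_flip N j ω e).1 hp), sam_flip_self]
  · rw [if_neg hp, if_neg (fun hc => hp ((pass_iff_flip N j ω e).2 hc))]

/-- The top maxima are, in expectation, at most twice the sum of the `Fe`. -/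
theorem lintegral_top_le :
    ∫⁻ ω, ((∑ e ∈ topW N j (xm ω), xm ω e : ℝ≥0) : ℝ≥0∞) ∂(law D) ≤
      2 * ∑ e ∈ N, ∫⁻ ω, (Fe N j e ω : ℝ≥0∞) ∂(law D) := by
  have hm2 : ∀ e ∈ N, Measurable fun ω : Outcome E =>
      ((if InTop N j (xm ω) e then xm ω e else 0 : ℝ≥0) : ℝ≥0∞) := fun e _ =>
    (Measurable.ite (measurableSet_inTop_xm N j e) (measurable_xm e)
      measurable_const).coe_nnreal_ennreal
  have h2 : ∀ ω : Outcome E, ((∑ e ∈ topW N j (xm ω), xm ω e : ℝ≥0) : ℝ≥0∞) =
      ∑ e ∈ N, ((if InTop N j (xm ω) e then xm ω e else 0 : ℝ≥0) : ℝ≥0∞) := by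
    intro ω
    unfold topW
    rw [Finset.sum_filter]
    push_cast
    rfl
  simp only [h2]
  rw [lintegral_finsetSum _ hm2, Finset.mul_sum]
  refine Finset.sum_le_sum fun e _ => ?_
  have hF : Measurable fun ω : Outcome E => (Fe N j e ω : ℝ≥0∞) :=
    (measurable_Fe N j e).coe_nnreal_ennreal
  calc ∫⁻ ω, ((if InTop N j (xm ω) e then xm ω e else 0 : ℝ≥0) : ℝ≥0∞) ∂(law D)
      ≤ ∫⁻ ω, ((Fe N j e ω : ℝ≥0∞) + (Fe N j e (flip e ω) : ℝ≥0∞)) ∂(law D) := by
        refine lintegral_mono fun ω => ?_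
        by_cases ht : InTop N j (xm ω) e
        · rw [if_pos ht]
          have ht' : InTop N j (xm (flip e ω)) e := by rwa [xm_flip]
          rcases le_total (sam ω e) (val ω e) with hle | hle
          · have h1 : Fe N j e ω = xm ω e := by
              unfold Fe xm
              rw [if_pos ⟨ht, hle⟩, max_eq_right hle]
            rw [h1]
            exact le_self_add
          · have h1 : Fe N j e (flip e ω) = xm ω e := by
              unfold Fe
              rw [if_pos ⟨ht', by rwa [sam_flip_self, val_flip_self]⟩, val_flip_self]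
              unfold xm
              rw [max_eq_left hle]
            rw [h1]
            exact le_add_self
        · rw [if_neg ht]
          simp
    _ = ∫⁻ ω, (Fe N j e ω : ℝ≥0∞) ∂(law D) + ∫⁻ ω, (Fe N j e (flip e ω) : ℝ≥0∞) ∂(law D) :=
        lintegral_add_left hF _
    _ = 2 * ∫⁻ ω, (Fe N j e ω : ℝ≥0∞) ∂(law D) := by
        rw [lintegral_flip D e (fun ω => (Fe N j e ω : ℝ≥0∞)), two_mul]

/-- The main integral inequality of the top-`j` test. -/
theorem top_main (hk : 2 * (j + 1) ≤ k)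
    (hfin : ∀ e ∈ N, ∫⁻ ω, (Fe N j e ω : ℝ≥0∞) ∂(law D) ≠ ∞) :
    ∫⁻ ω, (((∑ e ∈ N, if Pass N j (sam ω) e (val ω e) then val ω e else 0) +
        j * topT N j (sam ω) : ℝ≥0) : ℝ≥0∞) ∂(law D) ≤
      8 * ∫⁻ ω, ((∑ e ∈ N, Gm N j k e ω : ℝ≥0) : ℝ≥0∞) ∂(law D) := by
  have hGsum : ∫⁻ ω, ((∑ e ∈ N, Gm N j k e ω : ℝ≥0) : ℝ≥0∞) ∂(law D) =
      ∑ e ∈ N, ∫⁻ ω, (Gm N j k e ω : ℝ≥0∞) ∂(law D) := by
    simp only [ENNReal.ofNNReal_finsetSum]
    rw [lintegral_finsetSum _ fun e _ => (measurable_Gm N j k e).coe_nnreal_ennreal]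
  have hQ1 : Measurable fun ω : Outcome E => ((∑ e ∈ topW N j (sam ω), sam ω e : ℝ≥0) : ℝ≥0∞) := by
    have : (fun ω : Outcome E => ((∑ e ∈ topW N j (sam ω), sam ω e : ℝ≥0) : ℝ≥0∞)) =
        fun ω => ((∑ e ∈ N, if InTop N j (sam ω) e then sam ω e else 0 : ℝ≥0) : ℝ≥0∞) := by
      funext ω
      unfold topW
      rw [Finset.sum_filter]
    rw [this]
    refine Measurable.coe_nnreal_ennreal (Finset.measurable_sum _ fun e _ => ?_)
    exact Measurable.ite (measurableSet_inTop_sam N j e) (measurable_sam e) measurable_const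
  have hQ1Q : ∀ ω : Outcome E, ∑ e ∈ topW N j (sam ω), sam ω e ≤ ∑ e ∈ topW N j (xm ω), xm ω e := by
    intro ω
    calc ∑ e ∈ topW N j (sam ω), sam ω e ≤ ∑ e ∈ topW N j (sam ω), xm ω e :=
          Finset.sum_le_sum fun e _ => sam_le_xm ω e
      _ ≤ _ := sum_le_top N j (xm ω) _ (filter_subset _ _) (card_topW_le N j (sam ω))
  calc ∫⁻ ω, (((∑ e ∈ N, if Pass N j (sam ω) e (val ω e) then val ω e else 0) +
        j * topT N j (sam ω) : ℝ≥0) : ℝ≥0∞) ∂(law D)
      ≤ ∫⁻ ω, (((∑ e ∈ N, if Pass N j (sam ω) e (val ω e) then val ω e else 0 : ℝ≥0) : ℝ≥0∞) +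
          ((∑ e ∈ topW N j (sam ω), sam ω e : ℝ≥0) : ℝ≥0∞)) ∂(law D) := by
        refine lintegral_mono fun ω => ?_
        rw [← ENNReal.coe_add, ENNReal.coe_le_coe]
        gcongr
        exact mul_topT_le N j (sam ω)
    _ = ∫⁻ ω, ((∑ e ∈ N, if Pass N j (sam ω) e (val ω e) then val ω e else 0 : ℝ≥0) : ℝ≥0∞) ∂(law D) +
        ∫⁻ ω, ((∑ e ∈ topW N j (sam ω), sam ω e : ℝ≥0) : ℝ≥0∞) ∂(law D) :=
        lintegral_add_right _ hQ1
    _ ≤ 2 * ∫⁻ ω, ((∑ e ∈ topW N j (sam ω), sam ω e : ℝ≥0) : ℝ≥0∞) ∂(law D) := by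
        rw [two_mul]
        exact add_le_add (lintegral_pass_le N j D) le_rfl
    _ ≤ 2 * ∫⁻ ω, ((∑ e ∈ topW N j (xm ω), xm ω e : ℝ≥0) : ℝ≥0∞) ∂(law D) := by
        gcongr with ω
        exact hQ1Q ω
    _ ≤ 2 * (2 * ∑ e ∈ N, ∫⁻ ω, (Fe N j e ω : ℝ≥0∞) ∂(law D)) := by
        gcongr
        exact lintegral_top_le N j D
    _ ≤ 2 * (2 * ∑ e ∈ N, (2 * ∫⁻ ω, (Gm N j k e ω : ℝ≥0∞) ∂(law D))) := by
        gcongr with e he
        exact Fe_le_two_Gm N j k D hk e (hfin e he)
    _ = _ := by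
        rw [hGsum, ← Finset.mul_sum]
        ring

end Vale.Agent.Lib.P331
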